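import Vale.Agent.Lib.P121.Sheet

open scoped RealInnerProductSpace

namespace Vale.Agent.Lib.P121

variable {E : Type*} [NormedAddCommGroup E] [InnerProductSpace ℝ E]

omit [InnerProductSpace ℝ E] in
theorem Near.xy_ge {b x y z : E} (hb : ‖b‖ = 1) (h : Near b x y z) : 99 / 100 ≤ ‖x - y‖ := by
  obtain ⟨hx, hy, hz⟩ := h
  have h1 : ‖b‖ ≤ ‖x - y‖ + ‖x‖ + ‖y - b‖ := by
    have : b = -(x - y) + x - (y - b) := by abel
    calc ‖b‖ = ‖-(x - y) + x - (y - b)‖ := by rw [← this]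
      _ ≤ ‖-(x - y) + x‖ + ‖y - b‖ := norm_sub_le _ _
      _ ≤ ‖-(x - y)‖ + ‖x‖ + ‖y - b‖ := by gcongr; exact norm_add_le _ _
      _ = ‖x - y‖ + ‖x‖ + ‖y - b‖ := by rw [norm_neg]
  linarith

omit [InnerProductSpace ℝ E] in
theorem Near.xy_le {b x y z : E} (hb : ‖b‖ = 1) (h : Near b x y z) : ‖x - y‖ ≤ 101 / 100 := by
  obtain ⟨hx, hy, hz⟩ := h
  have h1 : ‖x - y‖ ≤ ‖x‖ + ‖y - b‖ + ‖b‖ := by
    have : x - y = x - (y - b) - b := by abel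
    rw [this]
    calc ‖x - (y - b) - b‖ ≤ ‖x - (y - b)‖ + ‖b‖ := norm_sub_le _ _
      _ ≤ ‖x‖ + ‖y - b‖ + ‖b‖ := by gcongr; exact norm_sub_le _ _
  linarith

omit [InnerProductSpace ℝ E] in
theorem Near.xz_ge {b x y z : E} (hb : ‖b‖ = 1) (h : Near b x y z) : 98 / 100 ≤ ‖x - z‖ := by
  obtain ⟨hx, hy, hz⟩ := h
  have h1 : ‖b‖ ≤ ‖x - z‖ + ‖x‖ + ‖z + b‖ := by
    have : b = (x - z) - x + (z + b) := by abel
    calc ‖b‖ = ‖(x - z) - x + (z + b)‖ := by rw [← this]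
      _ ≤ ‖(x - z) - x‖ + ‖z + b‖ := norm_add_le _ _
      _ ≤ ‖x - z‖ + ‖x‖ + ‖z + b‖ := by gcongr; exact norm_sub_le _ _
  linarith

omit [InnerProductSpace ℝ E] in
theorem Near.xz_le {b x y z : E} (hb : ‖b‖ = 1) (h : Near b x y z) : ‖x - z‖ ≤ 102 / 100 := by
  obtain ⟨hx, hy, hz⟩ := h
  have h1 : ‖x - z‖ ≤ ‖x‖ + ‖z + b‖ + ‖b‖ := by
    have : x - z = x - (z + b) + b := by abel
    rw [this]
    calc ‖x - (z + b) + b‖ ≤ ‖x - (z + b)‖ + ‖b‖ := norm_add_le _ _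
      _ ≤ ‖x‖ + ‖z + b‖ + ‖b‖ := by gcongr; exact norm_sub_le _ _
  linarith

theorem Near.yz_ge {b x y z : E} (hb : ‖b‖ = 1) (h : Near b x y z) : 198 / 100 ≤ ‖y - z‖ := by
  obtain ⟨hx, hy, hz⟩ := h
  have h2 : ‖(2 : ℝ) • b‖ ≤ ‖y - z‖ + ‖y - b‖ + ‖z + b‖ := by
    have : (2 : ℝ) • b = (y - z) - (y - b) + (z + b) := by
      rw [two_smul]; abel
    calc ‖(2 : ℝ) • b‖ = ‖(y - z) - (y - b) + (z + b)‖ := by rw [← this]
      _ ≤ ‖(y - z) - (y - b)‖ + ‖z + b‖ := norm_add_le _ _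
      _ ≤ ‖y - z‖ + ‖y - b‖ + ‖z + b‖ := by gcongr; exact norm_sub_le _ _
  rw [norm_smul, hb] at h2
  have : ‖(2 : ℝ)‖ = 2 := by norm_num
  rw [this] at h2
  linarith

theorem Near.yz_le {b x y z : E} (hb : ‖b‖ = 1) (h : Near b x y z) : ‖y - z‖ ≤ 202 / 100 := by
  obtain ⟨hx, hy, hz⟩ := h
  have h2 : ‖y - z‖ ≤ ‖(2 : ℝ) • b‖ + ‖y - b‖ + ‖z + b‖ := by
    have : y - z = (2 : ℝ) • b + (y - b) - (z + b) := by
      rw [two_smul]; abel
    rw [this]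
    calc ‖(2 : ℝ) • b + (y - b) - (z + b)‖ ≤ ‖(2 : ℝ) • b + (y - b)‖ + ‖z + b‖ := norm_sub_le _ _
      _ ≤ ‖(2 : ℝ) • b‖ + ‖y - b‖ + ‖z + b‖ := by gcongr; exact norm_add_le _ _
  rw [norm_smul, hb] at h2
  have : ‖(2 : ℝ)‖ = 2 := by norm_num
  rw [this] at h2
  linarith

/-- The four Lipschitz comparisons between two stationary triples. -/
theorem stat_lip {b x y z x' y' z' : E} (hb : ‖b‖ = 1)
    (hn : Near b x y z) (hs : Stat b x y z) (hn' : Near b x' y' z') (hs' : Stat b x' y' z') :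
    ‖y - y'‖ ≤ 3 * ‖x - x'‖ ∧ ‖z - z'‖ ≤ 3000 * ‖x - x'‖ ∧
      ‖x - x'‖ ≤ 40 * ‖y - y'‖ ∧ ‖x - x'‖ ≤ ‖z - z'‖ := by
  have e1 : (1000 : ℝ) • (x - x') = -((G (x - y) - G (x' - y')) + (G (x - z) - G (x' - z'))) := by
    have h1 := hs.1
    have h2 := hs'.1
    have h3 : (1000 : ℝ) • x = - G (x - y) - G (x - z) := by
      rw [← sub_eq_zero, ← h1]; abel
    have h4 : (1000 : ℝ) • x' = - G (x' - y') - G (x' - z') := by
      rw [← sub_eq_zero, ← h2]; abel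
    rw [smul_sub, h3, h4]
    abel
  have e2 : (1000 : ℝ) • (y - y') = -((G (y - x) - G (y' - x')) + (G (y - z) - G (y' - z'))) := by
    have h1 := hs.2
    have h2 := hs'.2
    have h3 : (1000 : ℝ) • (y - b) = - ((5 / 4 : ℝ) • b) - G (y - x) - G (y - z) := by
      rw [← sub_eq_zero, ← h1]; abel
    have h4 : (1000 : ℝ) • (y' - b) = - ((5 / 4 : ℝ) • b) - G (y' - x') - G (y' - z') := by
      rw [← sub_eq_zero, ← h2]; abel
    have h5 : y - y' = (y - b) - (y' - b) := by abel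
    rw [h5, smul_sub, h3, h4]
    abel
  have n1000 : ∀ v : E, ‖(1000 : ℝ) • v‖ = 1000 * ‖v‖ := by
    intro v
    rw [norm_smul]
    norm_num
  have xy := hn.xy_ge hb
  have xy' := hn'.xy_ge hb
  have xz := hn.xz_ge hb
  have xz' := hn'.xz_ge hb
  have yz := hn.yz_ge hb
  have yz' := hn'.yz_ge hb
  have Lxy : ‖G (x - y) - G (x' - y')‖ ≤ 3 * (‖x - x'‖ + ‖y - y'‖) := by
    have h1 := G_lip3 (v := x - y) (v' := x' - y') (by linarith) (by linarith)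
    have h2 : ‖(x - y) - (x' - y')‖ ≤ ‖x - x'‖ + ‖y - y'‖ := by
      have : (x - y) - (x' - y') = (x - x') - (y - y') := by abel
      rw [this]; exact norm_sub_le _ _
    linarith
  have Lyx : ‖G (y - x) - G (y' - x')‖ ≤ 3 * (‖x - x'‖ + ‖y - y'‖) := by
    have h1 : G (y - x) - G (y' - x') = -(G (x - y) - G (x' - y')) := by
      rw [← neg_sub x y, ← neg_sub x' y', G_neg, G_neg]; abel
    rw [h1, norm_neg]; exact Lxy
  have Lxz : ‖G (x - z) - G (x' - z')‖ ≤ 3 * (‖x - x'‖ + ‖z - z'‖) := by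
    have h1 := G_lip3 (v := x - z) (v' := x' - z') (by linarith) (by linarith)
    have h2 : ‖(x - z) - (x' - z')‖ ≤ ‖x - x'‖ + ‖z - z'‖ := by
      have : (x - z) - (x' - z') = (x - x') - (z - z') := by abel
      rw [this]; exact norm_sub_le _ _
    linarith
  have Lyz : ‖G (y - z) - G (y' - z')‖ ≤ 1 * (‖y - y'‖ + ‖z - z'‖) := by
    have h1 := G_lip1 (v := y - z) (v' := y' - z') (by linarith) (by linarith)
    have h2 : ‖(y - z) - (y' - z')‖ ≤ ‖y - y'‖ + ‖z - z'‖ := by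
      have : (y - z) - (y' - z') = (y - y') - (z - z') := by abel
      rw [this]; exact norm_sub_le _ _
    linarith
  -- (i)
  have i1 : 1000 * ‖x - x'‖ ≤ 3 * (‖x - x'‖ + ‖y - y'‖) + 3 * (‖x - x'‖ + ‖z - z'‖) := by
    rw [← n1000, e1, norm_neg]
    have := norm_add_le (G (x - y) - G (x' - y')) (G (x - z) - G (x' - z'))
    linarith
  -- (ii)
  have i2 : 1000 * ‖y - y'‖ ≤ 3 * (‖x - x'‖ + ‖y - y'‖) + 1 * (‖y - y'‖ + ‖z - z'‖) := by
    rw [← n1000, e2, norm_neg]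
    have := norm_add_le (G (y - x) - G (y' - x')) (G (y - z) - G (y' - z'))
    linarith
  have pos : ∀ v : E, (0 : ℝ) < ‖v‖ → v ≠ 0 := fun v h => norm_pos_iff.mp h
  -- (iii)
  have i3 : ‖z - z'‖ ≤ ‖x - x'‖ + 2 * (1000 * ‖x - x'‖ + 3 * (‖x - x'‖ + ‖y - y'‖)) := by
    have h1 : G (x - z) - G (x' - z') = -((1000 : ℝ) • (x - x')) - (G (x - y) - G (x' - y')) := by
      rw [e1]; abel
    have h2 : ‖G (x - z) - G (x' - z')‖ ≤ 1000 * ‖x - x'‖ + 3 * (‖x - x'‖ + ‖y - y'‖) := by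
      rw [h1]
      have := norm_sub_le (-((1000 : ℝ) • (x - x'))) (G (x - y) - G (x' - y'))
      rw [norm_neg, n1000] at this
      linarith
    have h3 := norm_sub_le_of_G (v := x - z) (v' := x' - z') (ρ := 11 / 10)
      (pos _ (by linarith)) (pos _ (by linarith)) (by linarith [hn.xz_le hb])
      (by linarith [hn'.xz_le hb])
    have h4 : ((11 : ℝ) / 10) ^ 3 * ‖G (x - z) - G (x' - z')‖ ≤ 2 * ‖G (x - z) - G (x' - z')‖ := by
      have : ((11 : ℝ) / 10) ^ 3 ≤ 2 := by norm_num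
      gcongr
    have h5 : ‖z - z'‖ ≤ ‖x - x'‖ + ‖(x - z) - (x' - z')‖ := by
      have : z - z' = (x - x') - ((x - z) - (x' - z')) := by abel
      calc ‖z - z'‖ = ‖(x - x') - ((x - z) - (x' - z'))‖ := by rw [← this]
        _ ≤ _ := norm_sub_le _ _
    linarith
  -- (iv)
  have i4 : ‖z - z'‖ ≤ ‖y - y'‖ + 10 * (1000 * ‖y - y'‖ + 3 * (‖x - x'‖ + ‖y - y'‖)) := by
    have h1 : G (y - z) - G (y' - z') = -((1000 : ℝ) • (y - y')) - (G (y - x) - G (y' - x')) := by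
      rw [e2]; abel
    have h2 : ‖G (y - z) - G (y' - z')‖ ≤ 1000 * ‖y - y'‖ + 3 * (‖x - x'‖ + ‖y - y'‖) := by
      rw [h1]
      have := norm_sub_le (-((1000 : ℝ) • (y - y'))) (G (y - x) - G (y' - x'))
      rw [norm_neg, n1000] at this
      linarith
    have h3 := norm_sub_le_of_G (v := y - z) (v' := y' - z') (ρ := 21 / 10)
      (pos _ (by linarith)) (pos _ (by linarith)) (by linarith [hn.yz_le hb])
      (by linarith [hn'.yz_le hb])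
    have h4 : ((21 : ℝ) / 10) ^ 3 * ‖G (y - z) - G (y' - z')‖ ≤ 10 * ‖G (y - z) - G (y' - z')‖ := by
      have : ((21 : ℝ) / 10) ^ 3 ≤ 10 := by norm_num
      gcongr
    have h5 : ‖z - z'‖ ≤ ‖y - y'‖ + ‖(y - z) - (y' - z')‖ := by
      have : z - z' = (y - y') - ((y - z) - (y' - z')) := by abel
      calc ‖z - z'‖ = ‖(y - y') - ((y - z) - (y' - z'))‖ := by rw [← this]
        _ ≤ _ := norm_sub_le _ _
    linarith
  have p1 := norm_nonneg (x - x')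
  have p2 := norm_nonneg (y - y')
  have p3 := norm_nonneg (z - z')
  refine ⟨?_, ?_, ?_, ?_⟩ <;> linarith

/-- The reduced cost, with the potentials of the first two regions subtracted. -/
noncomputable def Fval (b z x y : E) : ℝ :=
  1 / ‖x - y‖ + 1 / ‖x - z‖ + 1 / ‖y - z‖ + 500 * ‖x‖ ^ 2 + 500 * ‖y - b‖ ^ 2
    + 5 / 4 * ⟪b, y - b⟫

/-- A stationary triple gives the unique global minimiser of the reduced cost. -/
theorem Fval_min {b x y z : E} (hb : ‖b‖ = 1) (hn : Near b x y z) (hs : Stat b x y z)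
    {x' y' : E} (h1 : x' ≠ y') (h2 : x' ≠ z) (h3 : y' ≠ z) :
    Fval b z x y + 400 * (‖x' - x‖ ^ 2 + ‖y' - y‖ ^ 2) ≤ Fval b z x' y' := by
  have xy := hn.xy_ge hb
  have xz := hn.xz_ge hb
  have yz := hn.yz_ge hb
  have pos : ∀ v : E, (0 : ℝ) < ‖v‖ → v ≠ 0 := fun v h => norm_pos_iff.mp h
  have a1 := newton_semiconvex (v := x - y) (v' := x' - y') (pos _ (by linarith))
    (sub_ne_zero.mpr h1)
  have a2 := newton_semiconvex (v := x - z) (v' := x' - z) (pos _ (by linarith))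
    (sub_ne_zero.mpr h2)
  have a3 := newton_semiconvex (v := y - z) (v' := y' - z) (pos _ (by linarith))
    (sub_ne_zero.mpr h3)
  have c1 : (x' - y') - (x - y) = (x' - x) - (y' - y) := by abel
  have c2 : (x' - z) - (x - z) = x' - x := by abel
  have c3 : (y' - z) - (y - z) = y' - y := by abel
  rw [c1] at a1
  rw [c2] at a2
  rw [c3] at a3
  -- cubic denominators
  have d1 : ‖(x' - x) - (y' - y)‖ ^ 2 / (2 * ‖x - y‖ ^ 3) ≤ 2 * (‖x' - x‖ ^ 2 + ‖y' - y‖ ^ 2) := by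
    have q1 : (1 : ℝ) ≤ 2 * ‖x - y‖ ^ 3 := by
      have : ((99 : ℝ) / 100) ^ 3 ≤ ‖x - y‖ ^ 3 := by gcongr
      have : (1 : ℝ) ≤ 2 * (99 / 100) ^ 3 := by norm_num
      linarith
    have q2 : ‖(x' - x) - (y' - y)‖ ^ 2 / (2 * ‖x - y‖ ^ 3) ≤ ‖(x' - x) - (y' - y)‖ ^ 2 :=
      div_le_self (by positivity) q1
    have q3 : ‖(x' - x) - (y' - y)‖ ≤ ‖x' - x‖ + ‖y' - y‖ := norm_sub_le _ _
    have q4 : ‖(x' - x) - (y' - y)‖ ^ 2 ≤ (‖x' - x‖ + ‖y' - y‖) ^ 2 := by gcongr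
    nlinarith [sq_nonneg (‖x' - x‖ - ‖y' - y‖)]
  have d2 : ‖x' - x‖ ^ 2 / (2 * ‖x - z‖ ^ 3) ≤ ‖x' - x‖ ^ 2 := by
    have q1 : (1 : ℝ) ≤ 2 * ‖x - z‖ ^ 3 := by
      have : ((98 : ℝ) / 100) ^ 3 ≤ ‖x - z‖ ^ 3 := by gcongr
      have : (1 : ℝ) ≤ 2 * (98 / 100) ^ 3 := by norm_num
      linarith
    exact div_le_self (by positivity) q1
  have d3 : ‖y' - y‖ ^ 2 / (2 * ‖y - z‖ ^ 3) ≤ ‖y' - y‖ ^ 2 := by
    have q1 : (1 : ℝ) ≤ 2 * ‖y - z‖ ^ 3 := by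
      have : ((198 : ℝ) / 100) ^ 3 ≤ ‖y - z‖ ^ 3 := by gcongr
      have : (1 : ℝ) ≤ 2 * (198 / 100) ^ 3 := by norm_num
      linarith
    exact div_le_self (by positivity) q1
  -- quadratic expansions
  have b1 : ‖x'‖ ^ 2 = ‖x‖ ^ 2 + 2 * ⟪x, x' - x⟫ + ‖x' - x‖ ^ 2 := by
    have := norm_add_sq_real x (x' - x)
    simpa using this
  have b2 : ‖y' - b‖ ^ 2 = ‖y - b‖ ^ 2 + 2 * ⟪y - b, y' - y⟫ + ‖y' - y‖ ^ 2 := by
    have := norm_add_sq_real (y - b) (y' - y)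
    have e : (y - b) + (y' - y) = y' - b := by abel
    rwa [e] at this
  have b3 : ⟪b, y' - b⟫ = ⟪b, y - b⟫ + ⟪b, y' - y⟫ := by
    rw [← inner_add_right]
    congr 1
    abel
  -- stationarity
  have s1 : 1000 * ⟪x, x' - x⟫ + ⟪G (x - y), x' - x⟫ + ⟪G (x - z), x' - x⟫ = 0 := by
    have := congrArg (fun v => ⟪v, x' - x⟫) hs.1
    simpa [inner_add_left, inner_smul_left] using this
  have s2 : 1000 * ⟪y - b, y' - y⟫ + 5 / 4 * ⟪b, y' - y⟫ + ⟪G (y - x), y' - y⟫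
      + ⟪G (y - z), y' - y⟫ = 0 := by
    have := congrArg (fun v => ⟪v, y' - y⟫) hs.2
    simpa [inner_add_left, inner_smul_left] using this
  have s3 : ⟪G (x - y), (x' - x) - (y' - y)⟫ = ⟪G (x - y), x' - x⟫ + ⟪G (y - x), y' - y⟫ := by
    rw [inner_sub_right, ← neg_sub x y, G_neg, inner_neg_left]
    ring
  rw [s3] at a1
  have p1 := sq_nonneg ‖x' - x‖
  have p2 := sq_nonneg ‖y' - y‖
  unfold Fval
  rw [b1, b2, b3]
  linarith

end Vale.Agent.Lib.P121
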