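import Vale.Agent.Lib.P121.Setup

open MeasureTheory Set
open scoped ENNReal RealInnerProductSpace

namespace Vale.Agent.Lib.P121

namespace Setup

variable {E : Type*} [NormedAddCommGroup E] [InnerProductSpace ℝ E] (D : Setup E)

/-- Points of the four outer regions. -/
def Out : Set E := D.RB ∪ D.RC ∪ D.RD ∪ D.RF

/-- The support region. -/
def S : Set E := A ∪ D.Out

theorem Out_norm {p : E} (hp : p ∈ D.Out) : 99 / 100 ≤ ‖p‖ ∧ ‖p‖ ≤ 101 / 100 := by
  have hb' : ‖-D.b‖ = 1 := by rw [norm_neg, D.hb]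
  rcases hp with ((hp | hp) | hp) | hp
  · have h1 := norm_near D.hb (D.RB_norm hp)
    constructor <;> linarith
  · have h1 := norm_near (p := p) (e := 1 / 100) hb' (by
      rw [sub_neg_eq_add]; exact D.RC_norm hp)
    constructor <;> linarith
  · have h1 := norm_near D.hb (D.RB_norm hp)
    rw [D.R.norm_map] at h1
    constructor <;> linarith
  · have h1 := norm_near (p := D.R p) (e := 1 / 100) hb' (by
      rw [sub_neg_eq_add]; exact D.RC_norm hp)
    rw [D.R.norm_map] at h1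
    constructor <;> linarith

theorem u_Out {p : E} (hp : p ∈ D.Out) : 15 / 100 ≤ D.u p ∧ D.u p ≤ 31 / 100 := by
  rcases hp with ((hp | hp) | hp) | hp
  · rw [D.u_B hp]
    have := D.uB_bounds hp
    constructor <;> linarith
  · rw [D.u_C hp]
    exact D.uC_bounds hp
  · rw [D.u_D hp]
    have := D.uB_bounds hp
    constructor <;> linarith
  · rw [D.u_F hp]
    exact D.uC_bounds hp

/-- The basic inequality on the first sheet. -/
theorem sheet1 {x y z : E} (hx : x ∈ (A : Set E)) (hy : y ∈ D.RB) (hz : z ∈ D.RC) :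
    uA x + D.uB y + D.uC z ≤ cR x y z ∧
      (uA x + D.uB y + D.uC z = cR x y z → y = D.Y x ∧ z = D.Z x) := by
  obtain ⟨x₀, hx₀, rfl⟩ := hz
  have hxn : ‖x‖ ≤ 1 / 1000000 := hx
  have hyn := norm_near D.hb (D.RB_norm hy)
  have hzn := D.Out_norm (p := D.Z x₀) (Or.inl (Or.inl (Or.inr ⟨x₀, hx₀, rfl⟩)))
  have h1 : x ≠ y := by
    rintro rfl
    linarith
  have h2 : x ≠ D.Z x₀ := by
    rintro rfl
    linarith
  have h3 : y ≠ D.Z x₀ := by
    intro h
    have k1 := D.RB_norm hy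
    have k2 := D.RC_norm ⟨x₀, hx₀, rfl⟩
    rw [← h] at k2
    have : (2 : ℝ) • D.b = (y + D.b) - (y - D.b) := by rw [two_smul]; abel
    have h3 : ‖(2 : ℝ) • D.b‖ ≤ ‖y + D.b‖ + ‖y - D.b‖ := by
      rw [this]; exact norm_sub_le _ _
    rw [norm_smul, D.hb] at h3
    have : ‖(2 : ℝ)‖ = 2 := by norm_num
    rw [this] at h3
    linarith
  have key := Fval_min D.hb (D.near x₀ hx₀) (D.stat x₀ hx₀) h1 h2 h3
  have e1 : D.uC (D.Z x₀) = Fval D.b (D.Z x₀) x₀ (D.Y x₀) - 9 / 4 := by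
    unfold uC
    rw [D.invZ x₀ hx₀]
  have e2 : Fval D.b (D.Z x₀) x y = cR x y (D.Z x₀) - uA x - D.uB y + 9 / 4 := by
    unfold Fval cR uA uB
    ring
  rw [e2] at key
  rw [e1]
  have p1 := sq_nonneg ‖x - x₀‖
  have p2 := sq_nonneg ‖y - D.Y x₀‖
  refine ⟨by linarith, ?_⟩
  intro heq
  have q1 : ‖x - x₀‖ ^ 2 = 0 := by linarith
  have q2 : ‖y - D.Y x₀‖ ^ 2 = 0 := by linarith
  have q3 : x = x₀ := by
    have := pow_eq_zero_iff (two_ne_zero) |>.mp q1
    exact sub_eq_zero.mp (norm_eq_zero.mp this)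
  have q4 : y = D.Y x₀ := by
    have := pow_eq_zero_iff (two_ne_zero) |>.mp q2
    exact sub_eq_zero.mp (norm_eq_zero.mp this)
  rw [q3]
  exact ⟨q4, rfl⟩

omit [InnerProductSpace ℝ E] in
/-- lower bound for a reciprocal distance -/
theorem inv_ge {v : E} {t c : ℝ} (h0 : v ≠ 0) (hv : ‖v‖ ≤ t) (hc : c * t ≤ 1) : c ≤ 1 / ‖v‖ := by
  have hp : 0 < ‖v‖ := norm_pos_iff.mpr h0
  rw [le_div_iff₀ hp]
  by_cases hcs : 0 ≤ c
  · calc c * ‖v‖ ≤ c * t := by gcongr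
      _ ≤ 1 := hc
  · push Not at hcs
    nlinarith

theorem A_Out_ne {x y : E} (hx : x ∈ (A : Set E)) (hy : y ∈ D.Out) : x ≠ y := by
  rintro rfl
  have h1 := D.Out_norm hy
  have h2 : ‖x‖ ≤ 1 / 1000000 := hx
  linarith

theorem A_Out_inv {x y : E} (hx : x ∈ (A : Set E)) (hy : y ∈ D.Out) :
    98 / 100 ≤ 1 / ‖x - y‖ := by
  have h1 := D.Out_norm hy
  have h2 : ‖x‖ ≤ 1 / 1000000 := hx
  apply inv_ge (t := 102 / 100) (sub_ne_zero.mpr (D.A_Out_ne hx hy))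
  · have := norm_sub_le x y
    linarith
  · norm_num

omit [InnerProductSpace ℝ E] in
theorem inv_nonneg' (v : E) : 0 ≤ 1 / ‖v‖ := by positivity

/-- The mirror of a point of `Out` is in `Out`. -/
theorem R_A {x : E} (hx : x ∈ (A : Set E)) : D.R x ∈ (A : Set E) := by
  have : ‖x‖ ≤ 1 / 1000000 := hx
  show ‖D.R x‖ ≤ 1 / 1000000
  rwa [D.R.norm_map]

theorem uA_R (x : E) : uA (D.R x) = uA x := by
  unfold uA
  rw [D.R.norm_map]

theorem cR_R (x y z : E) : cR (D.R x) (D.R y) (D.R z) = cR x y z := by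
  unfold cR
  rw [← map_sub, ← map_sub, ← map_sub, D.R.norm_map, D.R.norm_map, D.R.norm_map]

/-- bounds when the two outer points are close -/
theorem close_strict {x y z : E} (hx : x ∈ (A : Set E)) (hy : y ∈ D.Out) (hz : z ∈ D.Out)
    (hyz : y ≠ z) (h : ‖y - z‖ ≤ 144 / 100) : D.u x + D.u y + D.u z < cR x y z := by
  have h1 := D.A_Out_inv hx hy
  have h2 := D.A_Out_inv hx hz
  have h3 : 69 / 100 ≤ 1 / ‖y - z‖ := by
    apply inv_ge (t := 144 / 100) (sub_ne_zero.mpr hyz) h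
    norm_num
  have h4 := D.u_Out hy
  have h5 := D.u_Out hz
  rw [u_A D hx]
  have h6 := uA_bounds hx
  unfold cR
  linarith

/-- The second sheet, obtained by the mirror symmetry. -/
theorem sheet2 {x y z : E} (hx : x ∈ (A : Set E)) (hy : y ∈ D.RD) (hz : z ∈ D.RF) :
    D.u x + D.u y + D.u z ≤ cR x y z ∧
      (D.u x + D.u y + D.u z = cR x y z →
        y = D.R (D.Y (D.R x)) ∧ z = D.R (D.Z (D.R x))) := by
  rw [u_A D hx, D.u_D hy, D.u_F hz, ← D.uA_R, ← D.cR_R]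
  have h := D.sheet1 (D.R_A hx) hy hz
  refine ⟨h.1, fun heq => ?_⟩
  obtain ⟨h1, h2⟩ := h.2 heq
  rw [← h1, ← h2, D.hR, D.hR]
  exact ⟨rfl, rfl⟩

omit [InnerProductSpace ℝ E] in
theorem dist_same {p q c : E} {e : ℝ} (hp : ‖p - c‖ ≤ e) (hq : ‖q - c‖ ≤ e) :
    ‖p - q‖ ≤ 2 * e := by
  have : p - q = (p - c) - (q - c) := by abel
  rw [this]
  have := norm_sub_le (p - c) (q - c)
  linarith

omit [InnerProductSpace ℝ E] in
theorem dist_centers {p q c d : E} {e : ℝ} (hp : ‖p - c‖ ≤ e) (hq : ‖q - d‖ ≤ e)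
    {m : ℝ} (hcd : ‖c - d‖ ≤ m) : ‖p - q‖ ≤ m + 2 * e := by
  have : p - q = (p - c) - (q - d) + (c - d) := by abel
  rw [this]
  have h1 := norm_add_le ((p - c) - (q - d)) (c - d)
  have h2 := norm_sub_le (p - c) (q - d)
  linarith

/-- The centre estimate of each region in a uniform shape. -/
theorem RB_c {p : E} (hp : p ∈ D.RB) : ‖p - D.b‖ ≤ 1 / 100 := by
  have := D.RB_norm hp
  linarith

theorem RC_c {p : E} (hp : p ∈ D.RC) : ‖p - -D.b‖ ≤ 1 / 100 := by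
  rw [sub_neg_eq_add]; exact D.RC_norm hp

theorem RD_c {p : E} (hp : p ∈ D.RD) : ‖p - D.R D.b‖ ≤ 1 / 100 := by
  rw [← D.norm_R_sub]
  exact D.RB_c hp

theorem RF_c {p : E} (hp : p ∈ D.RF) : ‖p - -D.R D.b‖ ≤ 1 / 100 := by
  rw [sub_neg_eq_add, ← D.norm_R_add]
  exact D.RC_norm hp

theorem cc1 : ‖D.b - D.R D.b‖ ≤ 142 / 100 := D.norm_b_sub_Rb.2
theorem cc2 : ‖D.b - -D.R D.b‖ ≤ 142 / 100 := by
  rw [sub_neg_eq_add]; exact D.norm_b_add_Rb.2
theorem cc3 : ‖-D.b - D.R D.b‖ ≤ 142 / 100 := by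
  rw [← neg_add', norm_neg]; exact D.norm_b_add_Rb.2
theorem cc4 : ‖-D.b - -D.R D.b‖ ≤ 142 / 100 := by
  rw [neg_sub_neg, norm_sub_rev]; exact D.norm_b_sub_Rb.2
theorem cc5 : ‖D.R D.b - D.b‖ ≤ 142 / 100 := by
  rw [norm_sub_rev]; exact D.cc1
theorem cc6 : ‖D.R D.b - -D.b‖ ≤ 142 / 100 := by
  rw [norm_sub_rev]; exact D.cc3
theorem cc7 : ‖-D.R D.b - D.b‖ ≤ 142 / 100 := by
  rw [norm_sub_rev]; exact D.cc2
theorem cc8 : ‖-D.R D.b - -D.b‖ ≤ 142 / 100 := by
  rw [norm_sub_rev]; exact D.cc4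

/-- Exactly one point in the base region. -/
theorem oneA {x y z : E} (hx : x ∈ (A : Set E)) (hy : y ∈ D.Out) (hz : z ∈ D.Out)
    (hyz : y ≠ z) : D.u x + D.u y + D.u z ≤ cR x y z ∧
      (D.u x + D.u y + D.u z = cR x y z →
        (y = D.Y x ∧ z = D.Z x) ∨ (y = D.Z x ∧ z = D.Y x) ∨
        (y = D.R (D.Y (D.R x)) ∧ z = D.R (D.Z (D.R x))) ∨
        (y = D.R (D.Z (D.R x)) ∧ z = D.R (D.Y (D.R x)))) := by
  have strict : ‖y - z‖ ≤ 144 / 100 → D.u x + D.u y + D.u z ≤ cR x y z ∧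
      (D.u x + D.u y + D.u z = cR x y z →
        (y = D.Y x ∧ z = D.Z x) ∨ (y = D.Z x ∧ z = D.Y x) ∨
        (y = D.R (D.Y (D.R x)) ∧ z = D.R (D.Z (D.R x))) ∨
        (y = D.R (D.Z (D.R x)) ∧ z = D.R (D.Y (D.R x)))) := by
    intro h
    have := D.close_strict hx hy hz hyz h
    exact ⟨this.le, fun h' => absurd h' this.ne⟩
  have same : ∀ c : E, ‖y - c‖ ≤ 1 / 100 → ‖z - c‖ ≤ 1 / 100 → ‖y - z‖ ≤ 144 / 100 := by
    intro c h1 h2
    have := dist_same h1 h2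
    linarith
  have diff : ∀ c d : E, ‖y - c‖ ≤ 1 / 100 → ‖z - d‖ ≤ 1 / 100 → ‖c - d‖ ≤ 142 / 100 →
      ‖y - z‖ ≤ 144 / 100 := by
    intro c d h1 h2 h3
    have := dist_centers h1 h2 h3
    linarith
  rcases hy with ((hy' | hy') | hy') | hy' <;> rcases hz with ((hz' | hz') | hz') | hz'
  -- B
  · exact strict (same _ (D.RB_c hy') (D.RB_c hz'))
  · have h := D.sheet1 hx hy' hz'
    rw [u_A D hx, D.u_B hy', D.u_C hz']
    exact ⟨h.1, fun h' => Or.inl (h.2 h')⟩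
  · exact strict (diff _ _ (D.RB_c hy') (D.RD_c hz') D.cc1)
  · exact strict (diff _ _ (D.RB_c hy') (D.RF_c hz') D.cc2)
  -- C
  · have h := D.sheet1 hx hz' hy'
    rw [u_A D hx, D.u_C hy', D.u_B hz', ← cR_perm2]
    refine ⟨by linarith [h.1], fun h' => Or.inr (Or.inl ?_)⟩
    have := h.2 (by linarith)
    exact ⟨this.2, this.1⟩
  · exact strict (same _ (D.RC_c hy') (D.RC_c hz'))
  · exact strict (diff _ _ (D.RC_c hy') (D.RD_c hz') D.cc3)
  · exact strict (diff _ _ (D.RC_c hy') (D.RF_c hz') D.cc4)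
  -- D
  · exact strict (diff _ _ (D.RD_c hy') (D.RB_c hz') D.cc5)
  · exact strict (diff _ _ (D.RD_c hy') (D.RC_c hz') D.cc6)
  · exact strict (same _ (D.RD_c hy') (D.RD_c hz'))
  · have h := D.sheet2 hx hy' hz'
    exact ⟨h.1, fun h' => Or.inr (Or.inr (Or.inl (h.2 h')))⟩
  -- F
  · exact strict (diff _ _ (D.RF_c hy') (D.RB_c hz') D.cc7)
  · exact strict (diff _ _ (D.RF_c hy') (D.RC_c hz') D.cc8)
  · have h := D.sheet2 hx hz' hy'
    rw [← cR_perm2]
    refine ⟨by linarith [h.1], fun h' => Or.inr (Or.inr (Or.inr ?_))⟩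
    have := h.2 (by linarith)
    exact ⟨this.2, this.1⟩
  · exact strict (same _ (D.RF_c hy') (D.RF_c hz'))

theorem u_le_two {p : E} (hp : p ∈ D.S) : D.u p ≤ 2 := by
  rcases hp with hp | hp
  · rw [u_A D hp]; exact (uA_bounds hp).2
  · have := (D.u_Out hp).2
    linarith

theorem u_nonneg {p : E} (hp : p ∈ D.S) : 0 ≤ D.u p := by
  rcases hp with hp | hp
  · rw [u_A D hp]
    have := (uA_bounds hp).1
    linarith
  · have := (D.u_Out hp).1
    linarith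

/-- Two points in the base region. -/
theorem twoA {x y z : E} (hx : x ∈ (A : Set E)) (hy : y ∈ (A : Set E)) (hz : z ∈ D.S)
    (hxy : x ≠ y) : D.u x + D.u y + D.u z < cR x y z := by
  have h1 : ‖x‖ ≤ 1 / 1000000 := hx
  have h2 : ‖y‖ ≤ 1 / 1000000 := hy
  have h3 : 10 ≤ 1 / ‖x - y‖ := by
    apply inv_ge (t := 1 / 10) (sub_ne_zero.mpr hxy)
    · have := norm_sub_le x y
      linarith
    · norm_num
  have h4 := D.u_le_two (Or.inl hx)
  have h5 := D.u_le_two (Or.inl hy)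
  have h6 := D.u_le_two hz
  have h7 := inv_nonneg' (x - z)
  have h8 := inv_nonneg' (y - z)
  unfold cR
  linarith

/-- No point in the base region. -/
theorem noA {x y z : E} (hx : x ∈ D.Out) (hy : y ∈ D.Out) (hz : z ∈ D.Out)
    (hxy : x ≠ y) (hxz : x ≠ z) (hyz : y ≠ z) : D.u x + D.u y + D.u z < cR x y z := by
  have key : ∀ p q : E, p ∈ D.Out → q ∈ D.Out → p ≠ q → 4 / 10 ≤ 1 / ‖p - q‖ := by
    intro p q hp hq hpq
    apply inv_ge (t := 202 / 100) (sub_ne_zero.mpr hpq)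
    · have := norm_sub_le p q
      have h1 := (D.Out_norm hp).2
      have h2 := (D.Out_norm hq).2
      linarith
    · norm_num
  have h1 := key x y hx hy hxy
  have h2 := key x z hx hz hxz
  have h3 := key y z hy hz hyz
  have h4 := (D.u_Out hx).2
  have h5 := (D.u_Out hy).2
  have h6 := (D.u_Out hz).2
  unfold cR
  linarith

/-- Real form of the contact statement. -/
theorem contact_real {p q r : E} (hp : p ∈ D.S) (hq : q ∈ D.S) (hr : r ∈ D.S)
    (hpq : p ≠ q) (hpr : p ≠ r) (hqr : q ≠ r) :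
    D.u p + D.u q + D.u r ≤ cR p q r ∧
      (D.u p + D.u q + D.u r = cR p q r →
        Contact (A : Set E) D.Y D.Z (fun x => D.R (D.Y (D.R x))) (fun x => D.R (D.Z (D.R x)))
          p q r) := by
  have of_strict : D.u p + D.u q + D.u r < cR p q r →
      D.u p + D.u q + D.u r ≤ cR p q r ∧
      (D.u p + D.u q + D.u r = cR p q r →
        Contact (A : Set E) D.Y D.Z (fun x => D.R (D.Y (D.R x))) (fun x => D.R (D.Z (D.R x)))
          p q r) := fun h => ⟨h.le, fun h' => absurd h' h.ne⟩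
  have hp0 := hp
  have hq0 := hq
  have hr0 := hr
  rcases hp with hp | hp <;> rcases hq with hq | hq <;> rcases hr with hr | hr
  · exact of_strict (D.twoA hp hq hr0 hpq)
  · exact of_strict (D.twoA hp hq hr0 hpq)
  · -- p, r in A
    apply of_strict
    have := D.twoA hp hr hq0 hpr
    rw [cR_perm2] at this
    linarith
  · -- only p in A
    have h := D.oneA hp hq hr hqr
    refine ⟨h.1, fun h' => ⟨p, hp, ?_⟩⟩
    rcases h.2 h' with h | h | h | h
    · exact Or.inl (Or.inl ⟨rfl, h.1, h.2⟩)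
    · exact Or.inl (Or.inr (Or.inl ⟨rfl, h.1, h.2⟩))
    · exact Or.inr (Or.inl ⟨rfl, h.1, h.2⟩)
    · exact Or.inr (Or.inr (Or.inl ⟨rfl, h.1, h.2⟩))
  · -- q, r in A
    apply of_strict
    have := D.twoA hq hr hp0 hqr
    rw [cR_perm2, cR_perm1] at this
    linarith
  · -- only q in A
    have h := D.oneA hq hp hr hpr
    rw [cR_perm1] at h
    refine ⟨by linarith [h.1], fun h' => ⟨q, hq, ?_⟩⟩
    rcases h.2 (by linarith) with h | h | h | h
    · exact Or.inl (Or.inr (Or.inr (Or.inl ⟨h.1, rfl, h.2⟩)))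
    · exact Or.inl (Or.inr (Or.inr (Or.inr (Or.inr (Or.inl ⟨h.1, rfl, h.2⟩)))))
    · exact Or.inr (Or.inr (Or.inr (Or.inl ⟨h.1, rfl, h.2⟩)))
    · exact Or.inr (Or.inr (Or.inr (Or.inr (Or.inr (Or.inl ⟨h.1, rfl, h.2⟩)))))
  · -- only r in A
    have h := D.oneA hr hp hq hpq
    rw [cR_perm1, cR_perm2] at h
    refine ⟨by linarith [h.1], fun h' => ⟨r, hr, ?_⟩⟩
    rcases h.2 (by linarith) with h | h | h | h
    · exact Or.inl (Or.inr (Or.inr (Or.inr (Or.inl ⟨h.1, h.2, rfl⟩))))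
    · exact Or.inl (Or.inr (Or.inr (Or.inr (Or.inr (Or.inr ⟨h.1, h.2, rfl⟩)))))
    · exact Or.inr (Or.inr (Or.inr (Or.inr (Or.inl ⟨h.1, h.2, rfl⟩))))
    · exact Or.inr (Or.inr (Or.inr (Or.inr (Or.inr (Or.inr ⟨h.1, h.2, rfl⟩)))))
  · exact of_strict (D.noA hp hq hr hpq hpr hqr)

end Setup

end Vale.Agent.Lib.P121
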