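import Vale.Agent.Lib.P121.Measure

open MeasureTheory Set
open scoped ENNReal

namespace Vale.Agent.Lib.P121

variable {E : Type*} [MeasurableSpace E] 
variable {s : Set E} {Y₁ Z₁ Y₂ Z₂ : E → E} {lam : Measure E}

theorem lintegral_marg (h : TwoSheets s Y₁ Z₁ Y₂ Z₂) {u : E → ℝ≥0∞} (hu : Measurable u) :
    ∫⁻ x, u x ∂(marg lam Y₁ Z₁ Y₂ Z₂) = (6 : ℝ≥0∞)⁻¹ *
      ((∫⁻ x, u x ∂lam + ∫⁻ x, u (Y₁ x) ∂lam + ∫⁻ x, u (Z₁ x) ∂lam)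
      + (∫⁻ x, u x ∂lam + ∫⁻ x, u (Y₂ x) ∂lam + ∫⁻ x, u (Z₂ x) ∂lam)) := by
  simp only [marg, lintegral_smul_measure, lintegral_add_measure, smul_eq_mul]
  rw [lintegral_map hu h.mY₁, lintegral_map hu h.mZ₁, lintegral_map hu h.mY₂,
    lintegral_map hu h.mZ₂]

theorem plan_cost (h : TwoSheets s Y₁ Z₁ Y₂ Z₂) (hs : lam sᶜ = 0)
    {u : E → ℝ≥0∞} (hu : Measurable u)
    {c : E → E → E → ℝ≥0∞} (hc : Measurable (fun p : E × E × E => c p.1 p.2.1 p.2.2))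
    (hcyc : ∀ x y z, c y z x = c x y z)
    (h1 : ∀ x ∈ s, c x (Y₁ x) (Z₁ x) = u x + u (Y₁ x) + u (Z₁ x))
    (h2 : ∀ x ∈ s, c x (Y₂ x) (Z₂ x) = u x + u (Y₂ x) + u (Z₂ x)) :
    ∫⁻ p, c p.1 p.2.1 p.2.2 ∂(plan lam Y₁ Z₁ Y₂ Z₂)
      = ∫⁻ x, u x ∂(marg lam Y₁ Z₁ Y₂ Z₂) + ∫⁻ x, u x ∂(marg lam Y₁ Z₁ Y₂ Z₂)
        + ∫⁻ x, u x ∂(marg lam Y₁ Z₁ Y₂ Z₂) := by
  have m1 := h.mY₁
  have m2 := h.mZ₁
  have m3 := h.mY₂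
  have m4 := h.mZ₂
  rw [lintegral_marg h hu]
  simp only [plan, lintegral_smul_measure, lintegral_add_measure, smul_eq_mul]
  rw [lintegral_map hc (by fun_prop), lintegral_map hc (by fun_prop),
    lintegral_map hc (by fun_prop), lintegral_map hc (by fun_prop),
    lintegral_map hc (by fun_prop), lintegral_map hc (by fun_prop)]
  simp only
  have hae : ∀ᵐ x ∂lam, x ∈ s := hs
  have e1 : ∫⁻ x, c x (Y₁ x) (Z₁ x) ∂lam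
      = ∫⁻ x, u x ∂lam + ∫⁻ x, u (Y₁ x) ∂lam + ∫⁻ x, u (Z₁ x) ∂lam := by
    rw [← lintegral_add_left hu, ← lintegral_add_left (by fun_prop)]
    apply lintegral_congr_ae
    filter_upwards [hae] with x hx
    exact h1 x hx
  have e2 : ∫⁻ x, c x (Y₂ x) (Z₂ x) ∂lam
      = ∫⁻ x, u x ∂lam + ∫⁻ x, u (Y₂ x) ∂lam + ∫⁻ x, u (Z₂ x) ∂lam := by
    rw [← lintegral_add_left hu, ← lintegral_add_left (by fun_prop)]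
    apply lintegral_congr_ae
    filter_upwards [hae] with x hx
    exact h2 x hx
  have e3 : ∀ x, c (Y₁ x) (Z₁ x) x = c x (Y₁ x) (Z₁ x) := fun x => hcyc _ _ _
  have e4 : ∀ x, c (Z₁ x) x (Y₁ x) = c x (Y₁ x) (Z₁ x) := fun x => by
    rw [hcyc (Y₁ x) (Z₁ x) x, hcyc]
  have e5 : ∀ x, c (Y₂ x) (Z₂ x) x = c x (Y₂ x) (Z₂ x) := fun x => hcyc _ _ _
  have e6 : ∀ x, c (Z₂ x) x (Y₂ x) = c x (Y₂ x) (Z₂ x) := fun x => by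
    rw [hcyc (Y₂ x) (Z₂ x) x, hcyc]
  simp only [e3, e4, e5, e6, e1, e2]
  ring

theorem ae_marg_mem (h : TwoSheets s Y₁ Z₁ Y₂ Z₂) (hs : lam sᶜ = 0) {S : Set E}
    (hS : MeasurableSet S) (hsS : s ⊆ S) (hY₁ : ∀ x ∈ s, Y₁ x ∈ S) (hZ₁ : ∀ x ∈ s, Z₁ x ∈ S)
    (hY₂ : ∀ x ∈ s, Y₂ x ∈ S) (hZ₂ : ∀ x ∈ s, Z₂ x ∈ S) :
    ∀ᵐ x ∂(marg lam Y₁ Z₁ Y₂ Z₂), x ∈ S := by
  have : marg lam Y₁ Z₁ Y₂ Z₂ Sᶜ = 0 := by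
    rw [marg_apply h hS.compl]
    rw [lam_zero hs (U := Sᶜ) (fun x hx hx' => hx' (hsS hx)),
      lam_zero hs (U := Y₁ ⁻¹' Sᶜ) (fun x hx hx' => hx' (hY₁ x hx)),
      lam_zero hs (U := Z₁ ⁻¹' Sᶜ) (fun x hx hx' => hx' (hZ₁ x hx)),
      lam_zero hs (U := Y₂ ⁻¹' Sᶜ) (fun x hx hx' => hx' (hY₂ x hx)),
      lam_zero hs (U := Z₂ ⁻¹' Sᶜ) (fun x hx hx' => hx' (hZ₂ x hx))]
    simp
  exact this

/-- Every Monge plan is strictly more expensive than the dual value. -/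
theorem monge_lt [StandardBorelSpace E] [IsProbabilityMeasure lam]
    (h : TwoSheets s Y₁ Z₁ Y₂ Z₂) (hs : lam sᶜ = 0)
    {S : Set E}
    (hS : MeasurableSet S) (hsS : s ⊆ S) (hY₁ : ∀ x ∈ s, Y₁ x ∈ S) (hZ₁ : ∀ x ∈ s, Z₁ x ∈ S)
    (hY₂ : ∀ x ∈ s, Y₂ x ∈ S) (hZ₂ : ∀ x ∈ s, Z₂ x ∈ S)
    {u : E → ℝ≥0∞} (hu : Measurable u) (hfin : ∫⁻ x, u x ∂(marg lam Y₁ Z₁ Y₂ Z₂) ≠ ∞)
    {c : E → E → E → ℝ≥0∞} (hc : Measurable (fun p : E × E × E => c p.1 p.2.1 p.2.2))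
    (hle : ∀ p ∈ S, ∀ q ∈ S, ∀ r ∈ S, u p + u q + u r ≤ c p q r)
    (heq : ∀ p ∈ S, ∀ q ∈ S, ∀ r ∈ S, u p + u q + u r = c p q r → Contact s Y₁ Z₁ Y₂ Z₂ p q r)
    {T₂ T₃ : E → E} (hT₂ : Measurable T₂) (hT₃ : Measurable T₃)
    (hp₂ : (marg lam Y₁ Z₁ Y₂ Z₂).map T₂ = marg lam Y₁ Z₁ Y₂ Z₂)
    (hp₃ : (marg lam Y₁ Z₁ Y₂ Z₂).map T₃ = marg lam Y₁ Z₁ Y₂ Z₂) :
    ∫⁻ x, u x ∂(marg lam Y₁ Z₁ Y₂ Z₂) + ∫⁻ x, u x ∂(marg lam Y₁ Z₁ Y₂ Z₂)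
        + ∫⁻ x, u x ∂(marg lam Y₁ Z₁ Y₂ Z₂)
      < ∫⁻ x, c x (T₂ x) (T₃ x) ∂(marg lam Y₁ Z₁ Y₂ Z₂) := by
  set μ := marg lam Y₁ Z₁ Y₂ Z₂ with hμ
  by_contra hcon
  push Not at hcon
  have hx := ae_marg_mem h hs hS hsS hY₁ hZ₁ hY₂ hZ₂
  have hx2 : ∀ᵐ x ∂μ, T₂ x ∈ S := by
    have : ∀ᵐ x ∂(μ.map T₂), x ∈ S := by rw [hp₂]; exact hx
    exact ae_of_ae_map hT₂.aemeasurable this
  have hx3 : ∀ᵐ x ∂μ, T₃ x ∈ S := by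
    have : ∀ᵐ x ∂(μ.map T₃), x ∈ S := by rw [hp₃]; exact hx
    exact ae_of_ae_map hT₃.aemeasurable this
  have i2 : ∫⁻ x, u (T₂ x) ∂μ = ∫⁻ x, u x ∂μ := by
    rw [← lintegral_map hu hT₂, hp₂]
  have i3 : ∫⁻ x, u (T₃ x) ∂μ = ∫⁻ x, u x ∂μ := by
    rw [← lintegral_map hu hT₃, hp₃]
  have i4 : ∫⁻ x, (u x + u (T₂ x) + u (T₃ x)) ∂μ
      = ∫⁻ x, u x ∂μ + ∫⁻ x, u x ∂μ + ∫⁻ x, u x ∂μ := by
    rw [lintegral_add_left (by fun_prop), lintegral_add_left hu, i2, i3]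
  have hcm : Measurable (fun x => c x (T₂ x) (T₃ x)) :=
    hc.comp (by fun_prop : Measurable (fun x => (x, T₂ x, T₃ x)))
  have i5 : (fun x => u x + u (T₂ x) + u (T₃ x)) =ᵐ[μ] (fun x => c x (T₂ x) (T₃ x)) := by
    apply ae_eq_of_ae_le_of_lintegral_le
    · filter_upwards [hx, hx2, hx3] with x h1 h2 h3
      exact hle _ h1 _ h2 _ h3
    · rw [i4]
      finiteness
    · exact hcm.aemeasurable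
    · rw [i4]
      exact hcon
  refine no_maps_in_contact h hs hT₂ hT₃ hp₂ hp₃ ?_
  filter_upwards [hx, hx2, hx3, i5] with x h1 h2 h3 h4
  exact heq _ h1 _ h2 _ h3 h4

end Vale.Agent.Lib.P121
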