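import Vale.Agent.Lib.P121.ContactReal

open MeasureTheory Set
open scoped ENNReal NNReal RealInnerProductSpace

namespace Vale.Agent.Lib.P121

section Inverse

variable {E : Type*} [NormedAddCommGroup E] [NormedSpace ℝ E] [FiniteDimensional ℝ E]

theorem exists_lip_inverse {s : Set E} {f : E → E} {K : ℝ≥0}
    (h : ∀ x ∈ s, ∀ y ∈ s, ‖x - y‖ ≤ K * ‖f x - f y‖) :
    ∃ (C : ℝ≥0) (g : E → E), LipschitzWith C g ∧ ∀ x ∈ s, g (f x) = x := by
  classical
  set g₀ := Function.invFunOn f s with hg₀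
  have h1 : ∀ x ∈ s, g₀ (f x) ∈ s ∧ f (g₀ (f x)) = f x := fun x hx =>
    Function.invFunOn_pos ⟨x, hx, rfl⟩
  have h2 : ∀ x ∈ s, g₀ (f x) = x := by
    intro x hx
    have h3 := h _ (h1 x hx).1 _ hx
    rw [(h1 x hx).2, sub_self, norm_zero, mul_zero] at h3
    exact sub_eq_zero.mp (norm_le_zero_iff.mp h3)
  have h3 : LipschitzOnWith K g₀ (f '' s) := by
    apply LipschitzOnWith.of_dist_le_mul
    rintro _ ⟨x, hx, rfl⟩ _ ⟨y, hy, rfl⟩
    rw [h2 x hx, h2 y hy, dist_eq_norm, dist_eq_norm]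
    exact h x hx y hy
  obtain ⟨g, hg, hgs⟩ := h3.extend_finite_dimension
  refine ⟨_, g, hg, fun x hx => ?_⟩
  rw [← hgs ⟨x, hx, rfl⟩, h2 x hx]

variable [MeasurableSpace E] [BorelSpace E]

theorem lip_image_le (μ : Measure E) [μ.IsAddHaarMeasure] {g : E → E} {K : ℝ≥0}
    (hg : LipschitzWith K g) (N : Set E) :
    μ (g '' N) ≤ (K : ℝ≥0∞) ^ (Module.finrank ℝ E) * μ N := by
  have h1 := hg.hausdorffMeasure_image_le (d := (Module.finrank ℝ E : ℝ)) (by positivity) N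
  obtain ⟨c, hc⟩ : ∃ c : ℝ≥0, μ = c • (μH[(Module.finrank ℝ E : ℝ)] : Measure E) :=
    ⟨_, Measure.isAddLeftInvariant_eq_smul μ _⟩
  rw [ENNReal.rpow_natCast] at h1
  rw [hc]
  simp only [Measure.smul_apply, ENNReal.smul_def, smul_eq_mul]
  calc (c : ℝ≥0∞) * (μH[(Module.finrank ℝ E : ℝ)] : Measure E) (g '' N)
      ≤ c * ((K : ℝ≥0∞) ^ (Module.finrank ℝ E) * (μH[(Module.finrank ℝ E : ℝ)] : Measure E) N) := by
        gcongr
    _ = _ := by ring

end Inverse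

section Exists

variable {E : Type*} [NormedAddCommGroup E] [InnerProductSpace ℝ E] [FiniteDimensional ℝ E]

theorem exists_setup (b : E) (R : E ≃ₗᵢ[ℝ] E) (hb : ‖b‖ = 1) (hR : ∀ x, R (R x) = x)
    (hperp : ⟪b, R b⟫ = 0) :
    ∃ D : Setup E, ∃ C : ℝ≥0, LipschitzWith C D.gY ∧ LipschitzWith C D.gZ := by
  classical
  have : CompleteSpace E := FiniteDimensional.complete ℝ E
  set s : Set E := {x | ‖x‖ ≤ 1 / 1000000} with hs
  have hex : ∀ x : E, x ∈ s → ∃ y z : E, Near b x y z ∧ Stat b x y z :=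
    fun x hx => exists_stat hb hx
  choose! y z hyz using hex
  have lip : ∀ x ∈ s, ∀ x' ∈ s, ‖y x - y x'‖ ≤ 3 * ‖x - x'‖ ∧ ‖z x - z x'‖ ≤ 3000 * ‖x - x'‖ ∧
      ‖x - x'‖ ≤ 40 * ‖y x - y x'‖ ∧ ‖x - x'‖ ≤ ‖z x - z x'‖ := fun x hx x' hx' =>
    stat_lip hb (hyz x hx).1 (hyz x hx).2 (hyz x' hx').1 (hyz x' hx').2
  have ly : LipschitzOnWith 3 y s := by
    apply LipschitzOnWith.of_dist_le_mul
    intro x hx x' hx'
    rw [dist_eq_norm, dist_eq_norm]
    exact (lip x hx x' hx').1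
  have lz : LipschitzOnWith 3000 z s := by
    apply LipschitzOnWith.of_dist_le_mul
    intro x hx x' hx'
    rw [dist_eq_norm, dist_eq_norm]
    exact (lip x hx x' hx').2.1
  obtain ⟨Y, hY, hYs⟩ := ly.extend_finite_dimension
  obtain ⟨Z, hZ, hZs⟩ := lz.extend_finite_dimension
  obtain ⟨C₁, gY, hgY, hgY'⟩ := exists_lip_inverse (s := s) (f := Y) (K := 40) (by
    intro x hx x' hx'
    rw [← hYs hx, ← hYs hx']
    exact (lip x hx x' hx').2.2.1)
  obtain ⟨C₂, gZ, hgZ, hgZ'⟩ := exists_lip_inverse (s := s) (f := Z) (K := 1) (by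
    intro x hx x' hx'
    rw [← hZs hx, ← hZs hx']
    simpa using (lip x hx x' hx').2.2.2)
  refine ⟨⟨b, R, Y, Z, gY, gZ, hb, hR, hperp, hY.continuous, hZ.continuous, hgY.continuous,
    hgZ.continuous, ?_, ?_, hgY', hgZ'⟩, max C₁ C₂, hgY.weaken (le_max_left _ _),
    hgZ.weaken (le_max_right _ _)⟩
  · intro x hx
    have := (hyz x hx).1
    rwa [hYs hx, hZs hx] at this
  · intro x hx
    have := (hyz x hx).2
    rwa [hYs hx, hZs hx] at this

end Exists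

namespace Setup

variable {E : Type*} [NormedAddCommGroup E] [InnerProductSpace ℝ E] (D : Setup E)

/-- Second sheet maps. -/
def Y2 (x : E) : E := D.R (D.Y (D.R x))
/-- Second sheet maps. -/
def Z2 (x : E) : E := D.R (D.Z (D.R x))

theorem mem_RB {x : E} (hx : x ∈ (A : Set E)) : D.Y x ∈ D.RB := ⟨x, hx, rfl⟩
theorem mem_RC {x : E} (hx : x ∈ (A : Set E)) : D.Z x ∈ D.RC := ⟨x, hx, rfl⟩
theorem mem_RD {x : E} (hx : x ∈ (A : Set E)) : D.Y2 x ∈ D.RD := by
  show D.R (D.R (D.Y (D.R x))) ∈ D.RB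
  rw [D.hR]
  exact D.mem_RB (D.R_A hx)
theorem mem_RF {x : E} (hx : x ∈ (A : Set E)) : D.Z2 x ∈ D.RF := by
  show D.R (D.R (D.Z (D.R x))) ∈ D.RC
  rw [D.hR]
  exact D.mem_RC (D.R_A hx)

theorem mem_Out_B {p : E} (hp : p ∈ D.RB) : p ∈ D.Out := Or.inl (Or.inl (Or.inl hp))
theorem mem_Out_C {p : E} (hp : p ∈ D.RC) : p ∈ D.Out := Or.inl (Or.inl (Or.inr hp))
theorem mem_Out_D {p : E} (hp : p ∈ D.RD) : p ∈ D.Out := Or.inl (Or.inr hp)
theorem mem_Out_F {p : E} (hp : p ∈ D.RF) : p ∈ D.Out := Or.inr hp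

omit [InnerProductSpace ℝ E] in
theorem ne_of_centers {p q c d : E} (hp : ‖p - c‖ ≤ 1 / 100) (hq : ‖q - d‖ ≤ 1 / 100)
    (hcd : 14 / 10 ≤ ‖c - d‖) : p ≠ q := by
  rintro rfl
  have : c - d = (p - d) - (p - c) := by abel
  rw [this] at hcd
  have := norm_sub_le (p - d) (p - c)
  linarith

theorem far_b : 14 / 10 ≤ ‖D.b - -D.b‖ := by
  rw [sub_neg_eq_add, ← two_smul ℝ, norm_smul, D.hb]
  norm_num

theorem far1 : 14 / 10 ≤ ‖D.b - D.R D.b‖ := D.norm_b_sub_Rb.1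
theorem far2 : 14 / 10 ≤ ‖D.b - -D.R D.b‖ := by
  rw [sub_neg_eq_add]; exact D.norm_b_add_Rb.1
theorem far3 : 14 / 10 ≤ ‖-D.b - D.R D.b‖ := by
  rw [← neg_add', norm_neg]; exact D.norm_b_add_Rb.1
theorem far4 : 14 / 10 ≤ ‖-D.b - -D.R D.b‖ := by
  rw [neg_sub_neg, norm_sub_rev]; exact D.norm_b_sub_Rb.1

variable [MeasurableSpace E] [BorelSpace E]

theorem twoSheets : TwoSheets (A : Set E) D.Y D.Z D.Y2 D.Z2 where
  ms := by
    have : (A : Set E) = Metric.closedBall 0 (1 / 1000000) := by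
      ext x
      simp [A]
    rw [this]
    exact Metric.isClosed_closedBall.measurableSet
  mY₁ := D.cY.measurable
  mZ₁ := D.cZ.measurable
  mY₂ := (D.R.continuous.comp (D.cY.comp D.R.continuous)).measurable
  mZ₂ := (D.R.continuous.comp (D.cZ.comp D.R.continuous)).measurable
  injY := by
    intro x hx y hy hxy
    rw [← D.invY x hx, ← D.invY y hy, hxy]
  injZ := by
    intro x hx y hy hxy
    rw [← D.invZ x hx, ← D.invZ y hy, hxy]
  dA1 := fun x hx y hy => D.A_Out_ne hx (D.mem_Out_B (D.mem_RB hy))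
  dA2 := fun x hx y hy => D.A_Out_ne hx (D.mem_Out_C (D.mem_RC hy))
  dA3 := fun x hx y hy => D.A_Out_ne hx (D.mem_Out_D (D.mem_RD hy))
  dA4 := fun x hx y hy => D.A_Out_ne hx (D.mem_Out_F (D.mem_RF hy))
  d12 := fun x hx y hy => ne_of_centers (D.RB_c (D.mem_RB hx)) (D.RC_c (D.mem_RC hy)) D.far_b
  d13 := fun x hx y hy => ne_of_centers (D.RB_c (D.mem_RB hx)) (D.RD_c (D.mem_RD hy)) D.far1
  d14 := fun x hx y hy => ne_of_centers (D.RB_c (D.mem_RB hx)) (D.RF_c (D.mem_RF hy)) D.far2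
  d23 := fun x hx y hy => ne_of_centers (D.RC_c (D.mem_RC hx)) (D.RD_c (D.mem_RD hy)) D.far3
  d24 := fun x hx y hy => ne_of_centers (D.RC_c (D.mem_RC hx)) (D.RF_c (D.mem_RF hy)) D.far4

theorem u_measurable [SecondCountableTopology E] : Measurable D.u := by
  have c1 := D.cY.measurable
  have c2 := D.cgZ.measurable
  have c3 : Measurable D.R := D.R.continuous.measurable
  have m1 : Measurable (uA : E → ℝ) := by
    unfold uA; fun_prop
  have m2 : Measurable D.uB := by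
    unfold uB; fun_prop
  have m3 : Measurable D.uC := by
    unfold uC Fval; fun_prop
  unfold u
  refine Measurable.ite ?_ m1 (Measurable.ite ?_ m2 (Measurable.ite ?_ m3
    (Measurable.ite ?_ (m2.comp c3) (m3.comp c3))))
  · exact measurableSet_le (by fun_prop) (by fun_prop)
  · exact measurableSet_le (by fun_prop) (by fun_prop)
  · exact measurableSet_le (by fun_prop) (by fun_prop)
  · exact measurableSet_le (by fun_prop) (by fun_prop)

end Setup

end Vale.Agent.Lib.P121
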