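import Mathlib

open scoped RealInnerProductSpace

namespace Vale.Agent.Lib.P121

variable {E : Type*} [NormedAddCommGroup E] [InnerProductSpace ℝ E]

/-- The gradient of `v ↦ 1 / ‖v‖`. -/
noncomputable def G (v : E) : E := -((‖v‖ ^ 3)⁻¹) • v

theorem G_neg (v : E) : G (-v) = -G v := by
  simp [G]

theorem inner_G (v w : E) : ⟪G v, w⟫ = -((‖v‖ ^ 3)⁻¹) * ⟪v, w⟫ := by
  simp [G, inner_smul_left]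

/-- Semiconvexity of the Coulomb potential, in a global form. -/
theorem newton_semiconvex {v v' : E} (hv : v ≠ 0) (hv' : v' ≠ 0) :
    1 / ‖v‖ + ⟪G v, v' - v⟫ - ‖v' - v‖ ^ 2 / (2 * ‖v‖ ^ 3) ≤ 1 / ‖v'‖ := by
  have hs : 0 < ‖v‖ := norm_pos_iff.mpr hv
  have ht : 0 < ‖v'‖ := norm_pos_iff.mpr hv'
  have h1 : ‖v'‖ ^ 2 = ‖v‖ ^ 2 + 2 * ⟪v, v' - v⟫ + ‖v' - v‖ ^ 2 := by
    have := norm_add_sq_real v (v' - v)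
    simpa using this
  rw [inner_G]
  set s := ‖v‖
  set t := ‖v'‖
  have h2 : 1 / s + -((s ^ 3)⁻¹) * ⟪v, v' - v⟫ - ‖v' - v‖ ^ 2 / (2 * s ^ 3)
      = 1 / s - (t ^ 2 - s ^ 2) / (2 * s ^ 3) := by
    have : ⟪v, v' - v⟫ = (t ^ 2 - s ^ 2 - ‖v' - v‖ ^ 2) / 2 := by linarith
    rw [this]
    field_simp
    ring
  rw [h2, ← sub_nonneg]
  have h3 : 1 / t - (1 / s - (t ^ 2 - s ^ 2) / (2 * s ^ 3))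
      = (s - t) ^ 2 * (2 * s + t) / (2 * s ^ 3 * t) := by
    field_simp
    ring
  rw [h3]
  positivity

theorem norm_G_sub_sq {v v' : E} (hv : v ≠ 0) (hv' : v' ≠ 0) :
    ‖G v - G v'‖ ^ 2 = ‖v - v'‖ ^ 2 / (‖v‖ ^ 3 * ‖v'‖ ^ 3)
      + (‖v‖ - ‖v'‖) ^ 2 * (‖v‖ ^ 2 + ‖v‖ * ‖v'‖ + ‖v'‖ ^ 2) / (‖v‖ ^ 4 * ‖v'‖ ^ 4) := by
  have hs : 0 < ‖v‖ := norm_pos_iff.mpr hv
  have ht : 0 < ‖v'‖ := norm_pos_iff.mpr hv'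
  have h1 : ‖v - v'‖ ^ 2 = ‖v‖ ^ 2 - 2 * ⟪v, v'⟫ + ‖v'‖ ^ 2 := norm_sub_sq_real v v'
  have h2 : ‖G v - G v'‖ ^ 2 = ‖G v‖ ^ 2 - 2 * ⟪G v, G v'⟫ + ‖G v'‖ ^ 2 := norm_sub_sq_real _ _
  have h3 : ∀ w : E, ‖G w‖ = (‖w‖ ^ 3)⁻¹ * ‖w‖ := by
    intro w
    simp [G, norm_smul]
  have h4 : ⟪G v, G v'⟫ = (‖v‖ ^ 3)⁻¹ * (‖v'‖ ^ 3)⁻¹ * ⟪v, v'⟫ := by
    simp [G, inner_smul_left, inner_smul_right]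
    ring
  rw [h2, h3, h3, h4, h1]
  have : ⟪v, v'⟫ = (‖v‖ ^ 2 + ‖v'‖ ^ 2 - ‖v - v'‖ ^ 2) / 2 := by linarith
  set s := ‖v‖
  set t := ‖v'‖
  field_simp
  ring

/-- Lower Lipschitz bound for `G`. -/
theorem norm_sub_le_of_G {v v' : E} {ρ : ℝ} (hv : v ≠ 0) (hv' : v' ≠ 0)
    (h1 : ‖v‖ ≤ ρ) (h2 : ‖v'‖ ≤ ρ) : ‖v - v'‖ ≤ ρ ^ 3 * ‖G v - G v'‖ := by
  have hs : 0 < ‖v‖ := norm_pos_iff.mpr hv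
  have ht : 0 < ‖v'‖ := norm_pos_iff.mpr hv'
  have hρ : 0 < ρ := lt_of_lt_of_le hs h1
  have key := norm_G_sub_sq hv hv'
  have h3 : ‖v - v'‖ ^ 2 / (ρ ^ 3 * ρ ^ 3) ≤ ‖G v - G v'‖ ^ 2 := by
    rw [key]
    have h4 : ‖v - v'‖ ^ 2 / (ρ ^ 3 * ρ ^ 3) ≤ ‖v - v'‖ ^ 2 / (‖v‖ ^ 3 * ‖v'‖ ^ 3) := by
      gcongr
    have h5 : 0 ≤ (‖v‖ - ‖v'‖) ^ 2 * (‖v‖ ^ 2 + ‖v‖ * ‖v'‖ + ‖v'‖ ^ 2) / (‖v‖ ^ 4 * ‖v'‖ ^ 4) := by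
      positivity
    linarith
  have h6 : ‖v - v'‖ ^ 2 ≤ (ρ ^ 3 * ‖G v - G v'‖) ^ 2 := by
    rw [div_le_iff₀ (by positivity)] at h3
    calc ‖v - v'‖ ^ 2 ≤ ‖G v - G v'‖ ^ 2 * (ρ ^ 3 * ρ ^ 3) := h3
      _ = (ρ ^ 3 * ‖G v - G v'‖) ^ 2 := by ring
  exact (pow_le_pow_iff_left₀ (norm_nonneg _) (by positivity) two_ne_zero).mp h6

/-- Upper Lipschitz bound for `G`. -/
theorem norm_G_sub_le {v v' : E} {r : ℝ} (hr : 0 < r)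
    (h1 : r ≤ ‖v‖) (h2 : r ≤ ‖v'‖) : ‖G v - G v'‖ ≤ 2 / r ^ 3 * ‖v - v'‖ := by
  have hs : 0 < ‖v‖ := lt_of_lt_of_le hr h1
  have ht : 0 < ‖v'‖ := lt_of_lt_of_le hr h2
  have key := norm_G_sub_sq (norm_pos_iff.mp hs) (norm_pos_iff.mp ht)
  have h3 : (‖v‖ - ‖v'‖) ^ 2 ≤ ‖v - v'‖ ^ 2 := by
    have := abs_norm_sub_norm_le v v'
    exact sq_le_sq' (by linarith [neg_abs_le (‖v‖ - ‖v'‖)]) (by linarith [le_abs_self (‖v‖ - ‖v'‖)])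
  set s := ‖v‖
  set t := ‖v'‖
  have h4 : ‖v - v'‖ ^ 2 / (s ^ 3 * t ^ 3) ≤ ‖v - v'‖ ^ 2 / (r ^ 3 * r ^ 3) := by
    gcongr
  have h5 : (s ^ 2 + s * t + t ^ 2) / (s ^ 4 * t ^ 4) ≤ 3 / r ^ 6 := by
    have e : (s ^ 2 + s * t + t ^ 2) / (s ^ 4 * t ^ 4)
        = 1 / (s ^ 2 * t ^ 4) + 1 / (s ^ 3 * t ^ 3) + 1 / (s ^ 4 * t ^ 2) := by
      field_simp
    have e1 : 1 / (s ^ 2 * t ^ 4) ≤ 1 / (r ^ 2 * r ^ 4) := by gcongr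
    have e2 : 1 / (s ^ 3 * t ^ 3) ≤ 1 / (r ^ 3 * r ^ 3) := by gcongr
    have e3 : 1 / (s ^ 4 * t ^ 2) ≤ 1 / (r ^ 4 * r ^ 2) := by gcongr
    rw [e]
    have f1 : r ^ 2 * r ^ 4 = r ^ 6 := by ring
    have f2 : r ^ 3 * r ^ 3 = r ^ 6 := by ring
    have f3 : r ^ 4 * r ^ 2 = r ^ 6 := by ring
    rw [f1] at e1
    rw [f2] at e2
    rw [f3] at e3
    have : (3 : ℝ) / r ^ 6 = 1 / r ^ 6 + 1 / r ^ 6 + 1 / r ^ 6 := by ring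
    linarith
  have h6 : ‖G v - G v'‖ ^ 2 ≤ (2 / r ^ 3 * ‖v - v'‖) ^ 2 := by
    have e1 : (s - t) ^ 2 * (s ^ 2 + s * t + t ^ 2) / (s ^ 4 * t ^ 4)
        ≤ ‖v - v'‖ ^ 2 * (3 / r ^ 6) := by
      rw [mul_div_assoc]
      gcongr
    have e2 : ‖v - v'‖ ^ 2 / (r ^ 3 * r ^ 3) + ‖v - v'‖ ^ 2 * (3 / r ^ 6)
        = (2 / r ^ 3 * ‖v - v'‖) ^ 2 := by
      field_simp
      ring
    rw [key]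
    linarith
  exact (pow_le_pow_iff_left₀ (norm_nonneg _) (by positivity) two_ne_zero).mp h6

/-- Every nonzero vector is a value of `G`. -/
theorem exists_G_eq {w : E} (hw : w ≠ 0) : ∃ v : E, v ≠ 0 ∧ G v = w ∧ ‖v‖ ^ 2 * ‖w‖ = 1 := by
  have hs : 0 < ‖w‖ := norm_pos_iff.mpr hw
  have hq : 0 < √‖w‖ := Real.sqrt_pos.mpr hs
  have hq2 : √‖w‖ ^ 2 = ‖w‖ := Real.sq_sqrt hs.le
  refine ⟨-((√‖w‖ ^ 3)⁻¹) • w, ?_, ?_, ?_⟩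
  · simp [hw, hq.ne']
  · have hn : ‖-((√‖w‖ ^ 3)⁻¹) • w‖ = (√‖w‖)⁻¹ := by
      rw [norm_smul]
      simp only [norm_neg, norm_inv, norm_pow, Real.norm_eq_abs, abs_of_pos hq]
      rw [← hq2]
      simp only [Real.sqrt_sq hq.le]
      field_simp
    unfold G
    rw [hn, smul_smul]
    have : -((√‖w‖)⁻¹ ^ 3)⁻¹ * -((√‖w‖ ^ 3)⁻¹) = 1 := by
      field_simp
    rw [this, one_smul]
  · rw [norm_smul]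
    simp only [norm_neg, norm_inv, norm_pow, Real.norm_eq_abs, abs_of_pos hq]
    have h6 : √‖w‖ ^ 6 = ‖w‖ ^ 3 := by
      calc √‖w‖ ^ 6 = (√‖w‖ ^ 2) ^ 3 := by ring
        _ = ‖w‖ ^ 3 := by rw [hq2]
    have h7 : ((√‖w‖ ^ 3)⁻¹ * ‖w‖) ^ 2 * ‖w‖ = (√‖w‖ ^ 6)⁻¹ * ‖w‖ ^ 3 := by
      field_simp
    rw [h7, h6]
    field_simp

end Vale.Agent.Lib.P121
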