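import Vale.Agent.Lib.P121.Exists

open MeasureTheory Set
open scoped ENNReal NNReal RealInnerProductSpace

namespace Vale.Agent.Lib.P121

namespace Setup

variable {E : Type*} [NormedAddCommGroup E] [InnerProductSpace ℝ E] (D : Setup E)

/-- The extended real valued Coulomb cost. -/
noncomputable def cE (p q r : E) : ℝ≥0∞ := (edist p q)⁻¹ + (edist p r)⁻¹ + (edist q r)⁻¹

omit [InnerProductSpace ℝ E] in
theorem cE_cyc (x y z : E) : cE y z x = cE x y z := by
  unfold cE
  rw [edist_comm y x, edist_comm z x]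
  ring

omit [InnerProductSpace ℝ E] in
theorem inv_edist {p q : E} (h : p ≠ q) : (edist p q)⁻¹ = ENNReal.ofReal (1 / ‖p - q‖) := by
  have hp : 0 < ‖p - q‖ := norm_pos_iff.mpr (sub_ne_zero.mpr h)
  rw [edist_dist, dist_eq_norm, ← ENNReal.ofReal_inv_of_pos hp, one_div]

omit [InnerProductSpace ℝ E] in
theorem cE_eq {p q r : E} (hpq : p ≠ q) (hpr : p ≠ r) (hqr : q ≠ r) :
    cE p q r = ENNReal.ofReal (cR p q r) := by
  unfold cE cR
  rw [inv_edist hpq, inv_edist hpr, inv_edist hqr, ENNReal.ofReal_add (by positivity) (by positivity),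
    ENNReal.ofReal_add (by positivity) (by positivity)]

/-- The extended real valued potential. -/
noncomputable def uE (p : E) : ℝ≥0∞ := ENNReal.ofReal (D.u p)

theorem uE_sum_ne_top (p q r : E) : D.uE p + D.uE q + D.uE r ≠ ∞ := by
  unfold uE
  finiteness

theorem contactE {p q r : E} (hp : p ∈ D.S) (hq : q ∈ D.S) (hr : r ∈ D.S) :
    D.uE p + D.uE q + D.uE r ≤ cE p q r ∧
      (D.uE p + D.uE q + D.uE r = cE p q r → Contact (A : Set E) D.Y D.Z D.Y2 D.Z2 p q r) := by
  have top : cE p q r = ∞ → D.uE p + D.uE q + D.uE r ≤ cE p q r ∧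
      (D.uE p + D.uE q + D.uE r = cE p q r → Contact (A : Set E) D.Y D.Z D.Y2 D.Z2 p q r) := by
    intro h
    rw [h]
    exact ⟨le_top, fun h' => absurd h' (D.uE_sum_ne_top p q r)⟩
  by_cases hpq : p = q
  · apply top
    simp [cE, hpq]
  by_cases hpr : p = r
  · apply top
    simp [cE, hpr]
  by_cases hqr : q = r
  · apply top
    simp [cE, hqr]
  have h := D.contact_real hp hq hr hpq hpr hqr
  have n1 := D.u_nonneg hp
  have n2 := D.u_nonneg hq
  have n3 := D.u_nonneg hr
  have e : D.uE p + D.uE q + D.uE r = ENNReal.ofReal (D.u p + D.u q + D.u r) := by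
    unfold uE
    rw [ENNReal.ofReal_add (by positivity) n3, ENNReal.ofReal_add n1 n2]
  rw [e, cE_eq hpq hpr hqr]
  refine ⟨ENNReal.ofReal_le_ofReal h.1, fun h' => h.2 ?_⟩
  have hc : 0 ≤ cR p q r := by unfold cR; positivity
  rwa [ENNReal.ofReal_eq_ofReal_iff (by positivity) hc] at h'

theorem sheetE1 {x : E} (hx : x ∈ (A : Set E)) :
    cE x (D.Y x) (D.Z x) = D.uE x + D.uE (D.Y x) + D.uE (D.Z x) := by
  have hn := D.near x hx
  have h1 : x ≠ D.Y x := D.A_Out_ne hx (D.mem_Out_B (D.mem_RB hx))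
  have h2 : x ≠ D.Z x := D.A_Out_ne hx (D.mem_Out_C (D.mem_RC hx))
  have h3 : D.Y x ≠ D.Z x := ne_of_centers (D.RB_c (D.mem_RB hx)) (D.RC_c (D.mem_RC hx)) D.far_b
  rw [cE_eq h1 h2 h3]
  have e : cR x (D.Y x) (D.Z x) = D.u x + D.u (D.Y x) + D.u (D.Z x) := by
    rw [u_A D hx, D.u_B (D.mem_RB hx), D.u_C (D.mem_RC hx)]
    unfold uC
    rw [D.invZ x hx]
    unfold Fval cR uA uB
    ring
  rw [e]
  have n1 := D.u_nonneg (Or.inl hx)
  have n2 := D.u_nonneg (Or.inr (D.mem_Out_B (D.mem_RB hx)))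
  have n3 := D.u_nonneg (Or.inr (D.mem_Out_C (D.mem_RC hx)))
  unfold uE
  rw [ENNReal.ofReal_add (by positivity) n3, ENNReal.ofReal_add n1 n2]

theorem cE_R (x y z : E) : cE (D.R x) (D.R y) (D.R z) = cE x y z := by
  unfold cE
  rw [D.R.edist_map, D.R.edist_map, D.R.edist_map]

theorem sheetE2 {x : E} (hx : x ∈ (A : Set E)) :
    cE x (D.Y2 x) (D.Z2 x) = D.uE x + D.uE (D.Y2 x) + D.uE (D.Z2 x) := by
  have h := D.sheetE1 (D.R_A hx)
  have e1 : cE x (D.Y2 x) (D.Z2 x) = cE (D.R x) (D.Y (D.R x)) (D.Z (D.R x)) := by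
    rw [← D.cE_R]
    unfold Y2 Z2
    rw [D.hR, D.hR]
  have e2 : D.uE (D.R x) = D.uE x := by
    unfold uE
    rw [u_A D hx, u_A D (D.R_A hx), D.uA_R]
  have e3 : D.uE (D.Y (D.R x)) = D.uE (D.Y2 x) := by
    unfold uE
    rw [D.u_B (D.mem_RB (D.R_A hx)), D.u_D (D.mem_RD hx)]
    unfold Y2
    rw [D.hR]
  have e4 : D.uE (D.Z (D.R x)) = D.uE (D.Z2 x) := by
    unfold uE
    rw [D.u_C (D.mem_RC (D.R_A hx)), D.u_F (D.mem_RF hx)]
    unfold Z2
    rw [D.hR]
  rw [e1, h, e2, e3, e4]

variable [FiniteDimensional ℝ E] [MeasurableSpace E] [BorelSpace E]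

theorem S_measurable : MeasurableSet D.S := by
  have : CompleteSpace E := FiniteDimensional.complete ℝ E
  have hA := D.twoSheets.ms
  have hB : MeasurableSet D.RB := hA.image_of_measurable_injOn D.twoSheets.mY₁ D.twoSheets.injY
  have hC : MeasurableSet D.RC := hA.image_of_measurable_injOn D.twoSheets.mZ₁ D.twoSheets.injZ
  have hR : Measurable D.R := D.R.continuous.measurable
  exact hA.union (((hB.union hC).union (hR hB)).union (hR hC))

/-- Normalised volume on the base region. -/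
noncomputable def lam (vol : Measure E) : Measure E := (vol A)⁻¹ • vol.restrict A

omit [FiniteDimensional ℝ E] [BorelSpace E] [InnerProductSpace ℝ E] in
theorem lam_prob {vol : Measure E} (h0 : vol A ≠ 0) (h1 : vol A ≠ ∞) :
    IsProbabilityMeasure (lam vol : Measure E) := by
  constructor
  simp only [lam, Measure.smul_apply, smul_eq_mul, Measure.restrict_apply_univ]
  exact ENNReal.inv_mul_cancel h0 h1

theorem density_bound (vol : Measure E) [vol.IsAddHaarMeasure] {f g : E → E} {C : ℝ≥0}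
    (hf : Measurable f) (hg : LipschitzWith C g) (hgf : ∀ x ∈ (A : Set E), g (f x) = x)
    {N : Set E} (hN : MeasurableSet N) :
    (lam vol : Measure E).map f N
      ≤ (vol A)⁻¹ * (C : ℝ≥0∞) ^ (Module.finrank ℝ E) * vol N := by
  rw [Measure.map_apply hf hN]
  simp only [lam, Measure.smul_apply, smul_eq_mul]
  rw [Measure.restrict_apply (hf hN), mul_assoc]
  gcongr
  refine le_trans (measure_mono ?_) (lip_image_le vol hg N)
  rintro x ⟨hx1, hx2⟩
  exact ⟨f x, hx1, hgf x hx2⟩

end Setup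

open Setup

/-- Main statement on an abstract finite-dimensional inner product space. -/
theorem main {E : Type*} [NormedAddCommGroup E] [InnerProductSpace ℝ E]
    [FiniteDimensional ℝ E] [MeasurableSpace E] [BorelSpace E]
    (vol : Measure E) [vol.IsAddHaarMeasure]
    (b : E) (R : E ≃ₗᵢ[ℝ] E) (hb : ‖b‖ = 1) (hR : ∀ x, R (R x) = x)
    (hperp : ⟪b, R b⟫ = 0) :
    ∃ μ : Measure E, IsProbabilityMeasure μ ∧ (∃ K : ℝ≥0, μ ≤ K • vol) ∧
      μ (Metric.closedBall 0 2)ᶜ = 0 ∧
      ∃ v : ℝ≥0∞, v < ∞ ∧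
        (∃ π : Measure (E × E × E), π.map (fun p => p.1) = μ ∧ π.map (fun p => p.2.1) = μ ∧
          π.map (fun p => p.2.2) = μ ∧ ∫⁻ p, cE p.1 p.2.1 p.2.2 ∂π = v) ∧
        ∀ T₂ T₃ : E → E, Measurable T₂ → Measurable T₃ → μ.map T₂ = μ → μ.map T₃ = μ →
          v < ∫⁻ x, cE x (T₂ x) (T₃ x) ∂μ := by
  obtain ⟨D, C, hC1, hC2⟩ := exists_setup b R hb hR hperp
  have : CompleteSpace E := FiniteDimensional.complete ℝ E
  have hAball : (A : Set E) = Metric.closedBall 0 (1 / 1000000) := by
    ext x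
    simp [A]
  have hv0 : vol A ≠ 0 := by
    rw [hAball]
    exact (Metric.measure_closedBall_pos vol _ (by norm_num)).ne'
  have hv1 : vol A ≠ ∞ := by
    rw [hAball]
    exact measure_closedBall_lt_top.ne
  have hlp : IsProbabilityMeasure (lam vol : Measure E) := lam_prob hv0 hv1
  have h := D.twoSheets
  have hs : (lam vol : Measure E) (A : Set E)ᶜ = 0 := by
    simp only [lam, Measure.smul_apply, smul_eq_mul]
    rw [Measure.restrict_apply h.ms.compl]
    simp
  set μ : Measure E := marg (lam vol) D.Y D.Z D.Y2 D.Z2 with hμ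
  have hμp : IsProbabilityMeasure μ := marg_isProb h
  have hS := ae_marg_mem h hs D.S_measurable (fun x hx => Or.inl hx)
    (fun x hx => Or.inr (D.mem_Out_B (D.mem_RB hx)))
    (fun x hx => Or.inr (D.mem_Out_C (D.mem_RC hx)))
    (fun x hx => Or.inr (D.mem_Out_D (D.mem_RD hx)))
    (fun x hx => Or.inr (D.mem_Out_F (D.mem_RF hx)))
  have hu : Measurable D.uE := D.u_measurable.ennreal_ofReal
  have hfin : ∫⁻ x, D.uE x ∂μ ≠ ∞ := by
    have : ∫⁻ x, D.uE x ∂μ ≤ ∫⁻ x, 2 ∂μ := by
      apply lintegral_mono_ae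
      filter_upwards [hS] with x hx
      have := D.u_le_two hx
      unfold uE
      exact ENNReal.ofReal_le_of_le_toReal (by simpa using this)
    rw [lintegral_const, measure_univ, mul_one] at this
    exact ne_top_of_le_ne_top (by norm_num) this
  have hc : Measurable (fun p : E × E × E => cE p.1 p.2.1 p.2.2) := by
    unfold cE
    fun_prop
  refine ⟨μ, hμp, ?_, ?_, ∫⁻ x, D.uE x ∂μ + ∫⁻ x, D.uE x ∂μ + ∫⁻ x, D.uE x ∂μ, ?_, ?_, ?_⟩
  · -- bounded density
    set K₀ : ℝ≥0∞ := (vol A)⁻¹ * (max C 1 : ℝ≥0) ^ (Module.finrank ℝ E) with hK₀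
    have hK₀' : K₀ ≠ ∞ := by
      apply ENNReal.mul_ne_top
      · simp [hv0]
      · finiteness
    have hY : ∀ N, MeasurableSet N → (lam vol : Measure E).map D.Y N ≤ K₀ * vol N :=
      fun N hN => density_bound vol h.mY₁ (hC1.weaken (le_max_left _ _))
        (fun x hx => D.invY x hx) hN
    have hZ : ∀ N, MeasurableSet N → (lam vol : Measure E).map D.Z N ≤ K₀ * vol N :=
      fun N hN => density_bound vol h.mZ₁ (hC2.weaken (le_max_left _ _))
        (fun x hx => D.invZ x hx) hN
    have hY2 : ∀ N, MeasurableSet N → (lam vol : Measure E).map D.Y2 N ≤ K₀ * vol N := by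
      intro N hN
      have hl : LipschitzWith (max C 1) (fun x => D.R (D.gY (D.R x))) := by
        have := D.R.lipschitz.comp (hC1.comp D.R.lipschitz)
        refine LipschitzWith.weaken this ?_
        simp
      refine density_bound vol h.mY₂ hl (fun x hx => ?_) hN
      unfold Y2
      rw [D.hR, D.invY _ (D.R_A hx), D.hR]
    have hZ2 : ∀ N, MeasurableSet N → (lam vol : Measure E).map D.Z2 N ≤ K₀ * vol N := by
      intro N hN
      have hl : LipschitzWith (max C 1) (fun x => D.R (D.gZ (D.R x))) := by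
        have := D.R.lipschitz.comp (hC2.comp D.R.lipschitz)
        refine LipschitzWith.weaken this ?_
        simp
      refine density_bound vol h.mZ₂ hl (fun x hx => ?_) hN
      unfold Z2
      rw [D.hR, D.invZ _ (D.R_A hx), D.hR]
    have hI : ∀ N, MeasurableSet N → (lam vol : Measure E) N ≤ K₀ * vol N := by
      intro N hN
      have hl : LipschitzWith (max C 1) (id : E → E) :=
        LipschitzWith.id.weaken (le_max_right _ _)
      have := density_bound vol (f := id) measurable_id hl (fun x _ => rfl) hN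
      rwa [Measure.map_id] at this
    refine ⟨K₀.toNNReal, ?_⟩
    rw [Measure.le_iff]
    intro N hN
    have e : (K₀.toNNReal • vol) N = K₀ * vol N := by
      rw [Measure.smul_apply, ENNReal.smul_def, ENNReal.coe_toNNReal hK₀', smul_eq_mul]
    rw [e, hμ]
    simp only [marg, Measure.smul_apply, Measure.add_apply, smul_eq_mul]
    calc (6 : ℝ≥0∞)⁻¹ * ((lam vol : Measure E) N + (lam vol : Measure E).map D.Y N
          + (lam vol : Measure E).map D.Z N
          + ((lam vol : Measure E) N + (lam vol : Measure E).map D.Y2 N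
          + (lam vol : Measure E).map D.Z2 N))
        ≤ (6 : ℝ≥0∞)⁻¹ * (K₀ * vol N + K₀ * vol N + K₀ * vol N
          + (K₀ * vol N + K₀ * vol N + K₀ * vol N)) := by
          gcongr
          · exact hI N hN
          · exact hY N hN
          · exact hZ N hN
          · exact hI N hN
          · exact hY2 N hN
          · exact hZ2 N hN
      _ = ((6 : ℝ≥0∞)⁻¹ * 6) * (K₀ * vol N) := by ring
      _ = K₀ * vol N := by
          rw [ENNReal.inv_mul_cancel (by norm_num) (by norm_num), one_mul]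
  · have : ∀ᵐ x ∂μ, x ∈ Metric.closedBall (0 : E) 2 := by
      filter_upwards [hS] with x hx
      rw [mem_closedBall_zero_iff]
      rcases hx with hx | hx
      · have hx' : ‖x‖ ≤ 1 / 1000000 := hx
        linarith
      · have := (D.Out_norm hx).2
        linarith
    exact this
  · exact lt_of_le_of_ne le_top (by finiteness)
  · obtain ⟨m1, m2, m3⟩ := plan_marginals (lam := (lam vol : Measure E)) h
    refine ⟨plan (lam vol) D.Y D.Z D.Y2 D.Z2, m1, m2, m3, ?_⟩
    exact plan_cost h hs hu hc cE_cyc (fun x hx => D.sheetE1 hx) (fun x hx => D.sheetE2 hx)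
  · intro T₂ T₃ hT₂ hT₃ hp₂ hp₃
    exact monge_lt h hs D.S_measurable (fun x hx => Or.inl hx)
      (fun x hx => Or.inr (D.mem_Out_B (D.mem_RB hx)))
      (fun x hx => Or.inr (D.mem_Out_C (D.mem_RC hx)))
      (fun x hx => Or.inr (D.mem_Out_D (D.mem_RD hx)))
      (fun x hx => Or.inr (D.mem_Out_F (D.mem_RF hx)))
      hu hfin hc (fun p hp q hq r hr => (D.contactE hp hq hr).1)
      (fun p hp q hq r hr => (D.contactE hp hq hr).2) hT₂ hT₃ hp₂ hp₃

end Vale.Agent.Lib.P121
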