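import Mathlib

open MeasureTheory Set
open scoped ENNReal

namespace Vale.Agent.Lib.P121

variable {E : Type*} [MeasurableSpace E] [StandardBorelSpace E]

/-- `(p, q, r)` is one of the six orderings of `(x, y, z)`. -/
def Perm3 (x y z p q r : E) : Prop :=
  (p = x ∧ q = y ∧ r = z) ∨ (p = x ∧ q = z ∧ r = y) ∨ (p = y ∧ q = x ∧ r = z) ∨
  (p = y ∧ q = z ∧ r = x) ∨ (p = z ∧ q = x ∧ r = y) ∨ (p = z ∧ q = y ∧ r = x)

/-- The data of two sheets over a common base set `s`. -/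
structure TwoSheets (s : Set E) (Y₁ Z₁ Y₂ Z₂ : E → E) : Prop where
  ms : MeasurableSet s
  mY₁ : Measurable Y₁
  mZ₁ : Measurable Z₁
  mY₂ : Measurable Y₂
  mZ₂ : Measurable Z₂
  injY : InjOn Y₁ s
  injZ : InjOn Z₁ s
  dA1 : ∀ x ∈ s, ∀ y ∈ s, x ≠ Y₁ y
  dA2 : ∀ x ∈ s, ∀ y ∈ s, x ≠ Z₁ y
  dA3 : ∀ x ∈ s, ∀ y ∈ s, x ≠ Y₂ y
  dA4 : ∀ x ∈ s, ∀ y ∈ s, x ≠ Z₂ y
  d12 : ∀ x ∈ s, ∀ y ∈ s, Y₁ x ≠ Z₁ y
  d13 : ∀ x ∈ s, ∀ y ∈ s, Y₁ x ≠ Y₂ y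
  d14 : ∀ x ∈ s, ∀ y ∈ s, Y₁ x ≠ Z₂ y
  d23 : ∀ x ∈ s, ∀ y ∈ s, Z₁ x ≠ Y₂ y
  d24 : ∀ x ∈ s, ∀ y ∈ s, Z₁ x ≠ Z₂ y

/-- The marginal measure built from the two sheets. -/
noncomputable def marg (lam : Measure E) (Y₁ Z₁ Y₂ Z₂ : E → E) : Measure E :=
  (6 : ℝ≥0∞)⁻¹ • ((lam + lam.map Y₁ + lam.map Z₁) + (lam + lam.map Y₂ + lam.map Z₂))

/-- The triple plan built from the two sheets. -/
noncomputable def plan (lam : Measure E) (Y₁ Z₁ Y₂ Z₂ : E → E) : Measure (E × E × E) :=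
  (6 : ℝ≥0∞)⁻¹ •
    ((lam.map (fun x => (x, Y₁ x, Z₁ x)) + lam.map (fun x => (Y₁ x, Z₁ x, x))
        + lam.map (fun x => (Z₁ x, x, Y₁ x)))
      + (lam.map (fun x => (x, Y₂ x, Z₂ x)) + lam.map (fun x => (Y₂ x, Z₂ x, x))
        + lam.map (fun x => (Z₂ x, x, Y₂ x))))

variable {s : Set E} {Y₁ Z₁ Y₂ Z₂ : E → E} {lam : Measure E}

omit [StandardBorelSpace E] in
theorem marg_apply (h : TwoSheets s Y₁ Z₁ Y₂ Z₂) {V : Set E} (hV : MeasurableSet V) :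
    marg lam Y₁ Z₁ Y₂ Z₂ V = (6 : ℝ≥0∞)⁻¹ * ((lam V + lam (Y₁ ⁻¹' V) + lam (Z₁ ⁻¹' V))
      + (lam V + lam (Y₂ ⁻¹' V) + lam (Z₂ ⁻¹' V))) := by
  simp [marg, Measure.map_apply h.mY₁ hV, Measure.map_apply h.mZ₁ hV,
    Measure.map_apply h.mY₂ hV, Measure.map_apply h.mZ₂ hV]
  ring

omit [StandardBorelSpace E] in
theorem marg_isProb [IsProbabilityMeasure lam] (h : TwoSheets s Y₁ Z₁ Y₂ Z₂) :
    IsProbabilityMeasure (marg lam Y₁ Z₁ Y₂ Z₂) := by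
  constructor
  rw [marg_apply h MeasurableSet.univ]
  simp only [preimage_univ, measure_univ]
  have : (1 + 1 + 1 + (1 + 1 + 1) : ℝ≥0∞) = 6 := by norm_num
  rw [this]
  exact ENNReal.inv_mul_cancel (by norm_num) (by norm_num)

omit [StandardBorelSpace E] in
/-- A measure restricted to `s` does not see points whose base point is outside `s`. -/
theorem lam_congr (hs : lam sᶜ = 0) {U V : Set E} (hUV : ∀ x ∈ s, x ∈ U ↔ x ∈ V) :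
    lam U = lam V := by
  apply measure_congr
  have h0 : ∀ᵐ x ∂lam, x ∈ s := hs
  filter_upwards [h0] with x hx
  exact propext (hUV x hx)

omit [StandardBorelSpace E] in
theorem lam_zero (hs : lam sᶜ = 0) {U : Set E} (hU : ∀ x ∈ s, x ∉ U) : lam U = 0 := by
  have := lam_congr hs (U := U) (V := ∅) (fun x hx => by simp [hU x hx])
  simpa using this

omit [StandardBorelSpace E] in
theorem marg_of_subset (h : TwoSheets s Y₁ Z₁ Y₂ Z₂) (hs : lam sᶜ = 0) {U : Set E}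
    (hU : MeasurableSet U) (hUs : U ⊆ s) :
    marg lam Y₁ Z₁ Y₂ Z₂ U = (6 : ℝ≥0∞)⁻¹ * (lam U + lam U) := by
  rw [marg_apply h hU]
  rw [lam_zero hs (U := Y₁ ⁻¹' U) (fun x hx hx' => h.dA1 _ (hUs hx') x hx rfl),
    lam_zero hs (U := Z₁ ⁻¹' U) (fun x hx hx' => h.dA2 _ (hUs hx') x hx rfl),
    lam_zero hs (U := Y₂ ⁻¹' U) (fun x hx hx' => h.dA3 _ (hUs hx') x hx rfl),
    lam_zero hs (U := Z₂ ⁻¹' U) (fun x hx hx' => h.dA4 _ (hUs hx') x hx rfl)]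
  simp

theorem marg_imageY (h : TwoSheets s Y₁ Z₁ Y₂ Z₂) (hs : lam sᶜ = 0) {U : Set E}
    (hU : MeasurableSet U) (hUs : U ⊆ s) :
    MeasurableSet (Y₁ '' U) ∧ marg lam Y₁ Z₁ Y₂ Z₂ (Y₁ '' U) = (6 : ℝ≥0∞)⁻¹ * lam U := by
  have hm : MeasurableSet (Y₁ '' U) := hU.image_of_measurable_injOn h.mY₁ (h.injY.mono hUs)
  refine ⟨hm, ?_⟩
  rw [marg_apply h hm]
  rw [lam_zero hs (U := Y₁ '' U) (fun x hx hx' => by
      obtain ⟨y, hy, hxy⟩ := hx'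
      exact h.dA1 x hx y (hUs hy) hxy.symm),
    lam_congr hs (U := Y₁ ⁻¹' (Y₁ '' U)) (V := U) (fun x hx => by
      constructor
      · rintro ⟨y, hy, hxy⟩
        have := h.injY (hUs hy) hx hxy
        rwa [← this]
      · intro hx'
        exact ⟨x, hx', rfl⟩),
    lam_zero hs (U := Z₁ ⁻¹' (Y₁ '' U)) (fun x hx hx' => by
      obtain ⟨y, hy, hxy⟩ := hx'
      exact h.d12 y (hUs hy) x hx hxy),
    lam_zero hs (U := Y₂ ⁻¹' (Y₁ '' U)) (fun x hx hx' => by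
      obtain ⟨y, hy, hxy⟩ := hx'
      exact h.d13 y (hUs hy) x hx hxy),
    lam_zero hs (U := Z₂ ⁻¹' (Y₁ '' U)) (fun x hx hx' => by
      obtain ⟨y, hy, hxy⟩ := hx'
      exact h.d14 y (hUs hy) x hx hxy)]
  simp

theorem marg_imageZ (h : TwoSheets s Y₁ Z₁ Y₂ Z₂) (hs : lam sᶜ = 0) {U : Set E}
    (hU : MeasurableSet U) (hUs : U ⊆ s) :
    MeasurableSet (Z₁ '' U) ∧ marg lam Y₁ Z₁ Y₂ Z₂ (Z₁ '' U) = (6 : ℝ≥0∞)⁻¹ * lam U := by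
  have hm : MeasurableSet (Z₁ '' U) := hU.image_of_measurable_injOn h.mZ₁ (h.injZ.mono hUs)
  refine ⟨hm, ?_⟩
  rw [marg_apply h hm]
  rw [lam_zero hs (U := Z₁ '' U) (fun x hx hx' => by
      obtain ⟨y, hy, hxy⟩ := hx'
      exact h.dA2 x hx y (hUs hy) hxy.symm),
    lam_congr hs (U := Z₁ ⁻¹' (Z₁ '' U)) (V := U) (fun x hx => by
      constructor
      · rintro ⟨y, hy, hxy⟩
        have := h.injZ (hUs hy) hx hxy
        rwa [← this]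
      · intro hx'
        exact ⟨x, hx', rfl⟩),
    lam_zero hs (U := Y₁ ⁻¹' (Z₁ '' U)) (fun x hx hx' => by
      obtain ⟨y, hy, hxy⟩ := hx'
      exact h.d12 x hx y (hUs hy) hxy.symm),
    lam_zero hs (U := Y₂ ⁻¹' (Z₁ '' U)) (fun x hx hx' => by
      obtain ⟨y, hy, hxy⟩ := hx'
      exact h.d23 y (hUs hy) x hx hxy),
    lam_zero hs (U := Z₂ ⁻¹' (Z₁ '' U)) (fun x hx hx' => by
      obtain ⟨y, hy, hxy⟩ := hx'
      exact h.d24 y (hUs hy) x hx hxy)]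
  simp

/-- The contact relation. -/
def Contact (s : Set E) (Y₁ Z₁ Y₂ Z₂ : E → E) (p q r : E) : Prop :=
  ∃ a ∈ s, Perm3 a (Y₁ a) (Z₁ a) p q r ∨ Perm3 a (Y₂ a) (Z₂ a) p q r

omit [StandardBorelSpace E] in
theorem contact_iff (h : TwoSheets s Y₁ Z₁ Y₂ Z₂) {U : Set E} (hUs : U ⊆ s) {p q r : E}
    (hc : Contact s Y₁ Z₁ Y₂ Z₂ p q r) :
    ((q ∈ Y₁ '' U ∨ r ∈ Y₁ '' U) ↔
      ((p ∈ s ∧ (q ∈ Y₁ '' s ∨ r ∈ Y₁ '' s)) ∧ p ∈ U) ∨ p ∈ Z₁ '' U) ∧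
    ¬ (q ∈ Y₁ '' U ∧ r ∈ Y₁ '' U) := by
  obtain ⟨a, ha, hc⟩ := hc
  have k1 : a ∉ Y₁ '' U := by
    rintro ⟨y, hy, hxy⟩
    exact h.dA1 a ha y (hUs hy) hxy.symm
  have k1' : a ∉ Y₁ '' s := by
    rintro ⟨y, hy, hxy⟩
    exact h.dA1 a ha y hy hxy.symm
  have k2 : a ∉ Z₁ '' U := by
    rintro ⟨y, hy, hxy⟩
    exact h.dA2 a ha y (hUs hy) hxy.symm
  have k3 : Y₁ a ∈ Y₁ '' U ↔ a ∈ U := by
    constructor
    · rintro ⟨y, hy, hxy⟩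
      have := h.injY (hUs hy) ha hxy
      rwa [← this]
    · intro hx'
      exact ⟨a, hx', rfl⟩
  have k4 : Y₁ a ∈ Y₁ '' s := ⟨a, ha, rfl⟩
  have k5 : Z₁ a ∉ Y₁ '' U := by
    rintro ⟨y, hy, hxy⟩
    exact h.d12 y (hUs hy) a ha hxy
  have k5' : Z₁ a ∉ Y₁ '' s := by
    rintro ⟨y, hy, hxy⟩
    exact h.d12 y hy a ha hxy
  have k6 : Z₁ a ∈ Z₁ '' U ↔ a ∈ U := by
    constructor
    · rintro ⟨y, hy, hxy⟩
      have := h.injZ (hUs hy) ha hxy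
      rwa [← this]
    · intro hx'
      exact ⟨a, hx', rfl⟩
  have k7 : Y₁ a ∉ Z₁ '' U := by
    rintro ⟨y, hy, hxy⟩
    exact h.d12 a ha y (hUs hy) hxy.symm
  have k8 : Y₁ a ∉ s := fun hx => h.dA1 _ hx a ha rfl
  have k9 : Z₁ a ∉ s := fun hx => h.dA2 _ hx a ha rfl
  have k10 : Y₂ a ∉ s := fun hx => h.dA3 _ hx a ha rfl
  have k11 : Z₂ a ∉ s := fun hx => h.dA4 _ hx a ha rfl
  have k12 : Y₂ a ∉ Y₁ '' U := by
    rintro ⟨y, hy, hxy⟩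
    exact h.d13 y (hUs hy) a ha hxy
  have k12' : Y₂ a ∉ Y₁ '' s := by
    rintro ⟨y, hy, hxy⟩
    exact h.d13 y hy a ha hxy
  have k13 : Z₂ a ∉ Y₁ '' U := by
    rintro ⟨y, hy, hxy⟩
    exact h.d14 y (hUs hy) a ha hxy
  have k13' : Z₂ a ∉ Y₁ '' s := by
    rintro ⟨y, hy, hxy⟩
    exact h.d14 y hy a ha hxy
  have k14 : Y₂ a ∉ Z₁ '' U := by
    rintro ⟨y, hy, hxy⟩
    exact h.d23 y (hUs hy) a ha hxy
  have k15 : Z₂ a ∉ Z₁ '' U := by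
    rintro ⟨y, hy, hxy⟩
    exact h.d24 y (hUs hy) a ha hxy
  rcases hc with hc | hc
  · rcases hc with ⟨rfl, rfl, rfl⟩ | ⟨rfl, rfl, rfl⟩ | ⟨rfl, rfl, rfl⟩ | ⟨rfl, rfl, rfl⟩ |
      ⟨rfl, rfl, rfl⟩ | ⟨rfl, rfl, rfl⟩ <;> tauto
  · rcases hc with ⟨rfl, rfl, rfl⟩ | ⟨rfl, rfl, rfl⟩ | ⟨rfl, rfl, rfl⟩ | ⟨rfl, rfl, rfl⟩ |
      ⟨rfl, rfl, rfl⟩ | ⟨rfl, rfl, rfl⟩ <;> tauto

/-- Key counting argument: no measure-preserving pair of maps can have its graph in the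
contact set. -/
theorem no_maps_in_contact [IsProbabilityMeasure lam] (h : TwoSheets s Y₁ Z₁ Y₂ Z₂)
    (hs : lam sᶜ = 0) {T₂ T₃ : E → E} (hT₂ : Measurable T₂) (hT₃ : Measurable T₃)
    (hp₂ : (marg lam Y₁ Z₁ Y₂ Z₂).map T₂ = marg lam Y₁ Z₁ Y₂ Z₂)
    (hp₃ : (marg lam Y₁ Z₁ Y₂ Z₂).map T₃ = marg lam Y₁ Z₁ Y₂ Z₂)
    (hc : ∀ᵐ x ∂(marg lam Y₁ Z₁ Y₂ Z₂), Contact s Y₁ Z₁ Y₂ Z₂ x (T₂ x) (T₃ x)) : False := by
  set μ := marg lam Y₁ Z₁ Y₂ Z₂ with hμ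
  have : IsProbabilityMeasure μ := marg_isProb h
  have hmB : MeasurableSet (Y₁ '' s) := (marg_imageY h hs h.ms subset_rfl).1
  -- the set of base points which use the first sheet
  set A₁ : Set E := {x | x ∈ s ∧ (T₂ x ∈ Y₁ '' s ∨ T₃ x ∈ Y₁ '' s)} with hA₁
  have hmA₁ : MeasurableSet A₁ := by
    have : A₁ = s ∩ (T₂ ⁻¹' (Y₁ '' s) ∪ T₃ ⁻¹' (Y₁ '' s)) := by
      ext x
      simp only [A₁, mem_ofPred_eq, mem_inter_iff, mem_union, mem_preimage]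
    rw [this]
    exact h.ms.inter ((hT₂ hmB).union (hT₃ hmB))
  have hA₁s : A₁ ⊆ s := fun x hx => hx.1
  -- the balance identity
  have key : ∀ U : Set E, MeasurableSet U → U ⊆ s →
      lam U = lam (A₁ ∩ U) + lam (A₁ ∩ U) := by
    intro U hU hUs
    obtain ⟨hmV, hV⟩ := marg_imageY h hs hU hUs
    obtain ⟨hmW, hW⟩ := marg_imageZ h hs hU hUs
    have hAU : MeasurableSet (A₁ ∩ U) := hmA₁.inter hU
    have hAUm := marg_of_subset h hs hAU (inter_subset_left.trans hA₁s)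
    -- measure of the union
    have e1 : μ (T₂ ⁻¹' (Y₁ '' U) ∪ T₃ ⁻¹' (Y₁ '' U)) = μ ((A₁ ∩ U) ∪ (Z₁ '' U)) := by
      apply measure_congr
      filter_upwards [hc] with x hx
      have := (contact_iff h hUs hx).1
      exact propext this
    have e2 : μ (T₂ ⁻¹' (Y₁ '' U) ∪ T₃ ⁻¹' (Y₁ '' U))
        = μ (T₂ ⁻¹' (Y₁ '' U)) + μ (T₃ ⁻¹' (Y₁ '' U)) := by
      apply measure_union₀ (hT₃ hmV).nullMeasurableSet
      have : μ (T₂ ⁻¹' (Y₁ '' U) ∩ T₃ ⁻¹' (Y₁ '' U)) = 0 := by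
        have : ∀ᵐ x ∂μ, x ∉ (T₂ ⁻¹' (Y₁ '' U) ∩ T₃ ⁻¹' (Y₁ '' U)) := by
          filter_upwards [hc] with x hx
          exact (contact_iff h hUs hx).2
        exact measure_eq_zero_iff_ae_notMem.mpr this
      exact this
    have e3 : μ (T₂ ⁻¹' (Y₁ '' U)) = μ (Y₁ '' U) := by
      rw [← Measure.map_apply hT₂ hmV, hp₂]
    have e4 : μ (T₃ ⁻¹' (Y₁ '' U)) = μ (Y₁ '' U) := by
      rw [← Measure.map_apply hT₃ hmV, hp₃]
    have e5 : μ ((A₁ ∩ U) ∪ (Z₁ '' U)) = μ (A₁ ∩ U) + μ (Z₁ '' U) := by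
      apply measure_union _ hmW
      rw [Set.disjoint_left]
      rintro x ⟨hx, -⟩ ⟨y, hy, hxy⟩
      exact h.dA2 x (hA₁s hx) y (hUs hy) hxy.symm
    have e6 : (6 : ℝ≥0∞)⁻¹ * lam U + (6 : ℝ≥0∞)⁻¹ * lam U
        = (6 : ℝ≥0∞)⁻¹ * (lam (A₁ ∩ U) + lam (A₁ ∩ U)) + (6 : ℝ≥0∞)⁻¹ * lam U := by
      calc (6 : ℝ≥0∞)⁻¹ * lam U + (6 : ℝ≥0∞)⁻¹ * lam U = μ (Y₁ '' U) + μ (Y₁ '' U) := by rw [hV]
        _ = μ (T₂ ⁻¹' (Y₁ '' U)) + μ (T₃ ⁻¹' (Y₁ '' U)) := by rw [e3, e4]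
        _ = μ ((A₁ ∩ U) ∪ (Z₁ '' U)) := by rw [← e2, e1]
        _ = μ (A₁ ∩ U) + μ (Z₁ '' U) := e5
        _ = (6 : ℝ≥0∞)⁻¹ * (lam (A₁ ∩ U) + lam (A₁ ∩ U)) + (6 : ℝ≥0∞)⁻¹ * lam U := by
          rw [hW, hAUm]
    have hfin : (6 : ℝ≥0∞)⁻¹ * lam U ≠ ∞ :=
      ENNReal.mul_ne_top (by simp) (measure_ne_top _ _)
    have e7 := (ENNReal.add_left_inj hfin).mp e6
    have h6 : (6 : ℝ≥0∞)⁻¹ ≠ 0 := by simp
    have h6' : (6 : ℝ≥0∞)⁻¹ ≠ ∞ := by simp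
    exact (ENNReal.mul_right_inj h6 h6').mp e7
  have k1 := key A₁ hmA₁ hA₁s
  rw [inter_self] at k1
  have k2 : lam A₁ = 0 := by
    have hfin : lam A₁ ≠ ∞ := measure_ne_top _ _
    by_contra hne
    have : lam A₁ < lam A₁ + lam A₁ := ENNReal.lt_add_right hfin hne
    rw [← k1] at this
    exact lt_irrefl _ this
  have k3 := key s h.ms subset_rfl
  rw [inter_eq_left.mpr hA₁s, k2, add_zero] at k3
  have k4 : lam univ = 0 := by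
    have : (univ : Set E) = s ∪ sᶜ := by simp
    rw [this]
    exact measure_union_null k3 hs
  rw [measure_univ] at k4
  exact one_ne_zero k4

omit [StandardBorelSpace E] in
/-- The marginals of the plan. -/
theorem plan_marginals (h : TwoSheets s Y₁ Z₁ Y₂ Z₂) :
    (plan lam Y₁ Z₁ Y₂ Z₂).map (fun p => p.1) = marg lam Y₁ Z₁ Y₂ Z₂ ∧
    (plan lam Y₁ Z₁ Y₂ Z₂).map (fun p => p.2.1) = marg lam Y₁ Z₁ Y₂ Z₂ ∧
    (plan lam Y₁ Z₁ Y₂ Z₂).map (fun p => p.2.2) = marg lam Y₁ Z₁ Y₂ Z₂ := by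
  have m1 := h.mY₁
  have m2 := h.mZ₁
  have m3 := h.mY₂
  have m4 := h.mZ₂
  have f1 : Measurable (fun p : E × E × E => p.1) := by fun_prop
  have f2 : Measurable (fun p : E × E × E => p.2.1) := by fun_prop
  have f3 : Measurable (fun p : E × E × E => p.2.2) := by fun_prop
  refine ⟨?_, ?_, ?_⟩
  · simp only [plan, marg, Measure.map_smul, Measure.map_add _ _ f1]
    rw [Measure.map_map f1 (by fun_prop), Measure.map_map f1 (by fun_prop),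
      Measure.map_map f1 (by fun_prop), Measure.map_map f1 (by fun_prop),
      Measure.map_map f1 (by fun_prop), Measure.map_map f1 (by fun_prop)]
    simp [Function.comp_def, Measure.map_id']
  · simp only [plan, marg, Measure.map_smul, Measure.map_add _ _ f2]
    rw [Measure.map_map f2 (by fun_prop), Measure.map_map f2 (by fun_prop),
      Measure.map_map f2 (by fun_prop), Measure.map_map f2 (by fun_prop),
      Measure.map_map f2 (by fun_prop), Measure.map_map f2 (by fun_prop)]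
    simp only [Function.comp_def, Measure.map_id']
    congr 1
    abel
  · simp only [plan, marg, Measure.map_smul, Measure.map_add _ _ f3]
    rw [Measure.map_map f3 (by fun_prop), Measure.map_map f3 (by fun_prop),
      Measure.map_map f3 (by fun_prop), Measure.map_map f3 (by fun_prop),
      Measure.map_map f3 (by fun_prop), Measure.map_map f3 (by fun_prop)]
    simp only [Function.comp_def, Measure.map_id']
    congr 1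
    abel

end Vale.Agent.Lib.P121
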