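import Vale.Agent.Lib.P121.Compare
import Vale.Agent.Lib.P121.Duality

open MeasureTheory Set
open scoped ENNReal RealInnerProductSpace

namespace Vale.Agent.Lib.P121

/-- All geometric data of the construction. -/
structure Setup (E : Type*) [NormedAddCommGroup E] [InnerProductSpace ℝ E] where
  b : E
  R : E ≃ₗᵢ[ℝ] E
  Y : E → E
  Z : E → E
  gY : E → E
  gZ : E → E
  hb : ‖b‖ = 1
  hR : ∀ x, R (R x) = x
  hperp : ⟪b, R b⟫ = 0
  cY : Continuous Y
  cZ : Continuous Z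
  cgY : Continuous gY
  cgZ : Continuous gZ
  near : ∀ x, ‖x‖ ≤ 1 / 1000000 → Near b x (Y x) (Z x)
  stat : ∀ x, ‖x‖ ≤ 1 / 1000000 → Stat b x (Y x) (Z x)
  invY : ∀ x, ‖x‖ ≤ 1 / 1000000 → gY (Y x) = x
  invZ : ∀ x, ‖x‖ ≤ 1 / 1000000 → gZ (Z x) = x

namespace Setup

variable {E : Type*} [NormedAddCommGroup E] [InnerProductSpace ℝ E] (D : Setup E)

/-- Base region. -/
def A : Set E := {x | ‖x‖ ≤ 1 / 1000000}

def RB : Set E := D.Y '' A
def RC : Set E := D.Z '' A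
def RD : Set E := {p | D.R p ∈ D.RB}
def RF : Set E := {p | D.R p ∈ D.RC}

noncomputable def uA (x : E) : ℝ := 2 - 500 * ‖x‖ ^ 2
noncomputable def uB (y : E) : ℝ := 1 / 4 - 500 * ‖y - D.b‖ ^ 2 - 5 / 4 * ⟪D.b, y - D.b⟫
noncomputable def uC (z : E) : ℝ := Fval D.b z (D.gZ z) (D.Y (D.gZ z)) - 9 / 4

open Classical in
/-- The potential. -/
noncomputable def u (p : E) : ℝ :=
  if ‖p‖ ≤ 1 / 100 then uA p
  else if ‖p - D.b‖ ≤ 1 / 100 then D.uB p
  else if ‖p + D.b‖ ≤ 1 / 100 then D.uC p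
  else if ‖D.R p - D.b‖ ≤ 1 / 100 then D.uB (D.R p)
  else D.uC (D.R p)

/-- The real Coulomb cost. -/
noncomputable def cR (p q r : E) : ℝ := 1 / ‖p - q‖ + 1 / ‖p - r‖ + 1 / ‖q - r‖

omit [InnerProductSpace ℝ E] in
theorem cR_perm1 (p q r : E) : cR q p r = cR p q r := by
  unfold cR; rw [norm_sub_rev q p]; ring

omit [InnerProductSpace ℝ E] in
theorem cR_perm2 (p q r : E) : cR p r q = cR p q r := by
  unfold cR; rw [norm_sub_rev r q]; ring

theorem norm_b_sub_Rb : 14 / 10 ≤ ‖D.b - D.R D.b‖ ∧ ‖D.b - D.R D.b‖ ≤ 142 / 100 := by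
  have h : ‖D.b - D.R D.b‖ ^ 2 = 2 := by
    rw [norm_sub_sq_real, D.hperp, D.R.norm_map, D.hb]
    norm_num
  constructor
  · by_contra hcon
    push Not at hcon
    have := norm_nonneg (D.b - D.R D.b)
    nlinarith
  · by_contra hcon
    push Not at hcon
    nlinarith

theorem norm_b_add_Rb : 14 / 10 ≤ ‖D.b + D.R D.b‖ ∧ ‖D.b + D.R D.b‖ ≤ 142 / 100 := by
  have h : ‖D.b + D.R D.b‖ ^ 2 = 2 := by
    rw [norm_add_sq_real, D.hperp, D.R.norm_map, D.hb]
    norm_num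
  constructor
  · by_contra hcon
    push Not at hcon
    have := norm_nonneg (D.b + D.R D.b)
    nlinarith
  · by_contra hcon
    push Not at hcon
    nlinarith

theorem norm_R_sub (p q : E) : ‖D.R p - q‖ = ‖p - D.R q‖ := by
  have : D.R p - q = D.R (p - D.R q) := by
    rw [map_sub, D.hR]
  rw [this, D.R.norm_map]

theorem norm_R_add (p q : E) : ‖D.R p + q‖ = ‖p + D.R q‖ := by
  have : D.R p + q = D.R (p + D.R q) := by
    rw [map_add, D.hR]
  rw [this, D.R.norm_map]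

theorem RB_norm {p : E} (hp : p ∈ D.RB) : ‖p - D.b‖ ≤ 4 / 1000000 := by
  obtain ⟨x, hx, rfl⟩ := hp
  exact (D.near x hx).2.1

theorem RC_norm {p : E} (hp : p ∈ D.RC) : ‖p + D.b‖ ≤ 1 / 100 := by
  obtain ⟨x, hx, rfl⟩ := hp
  exact (D.near x hx).2.2

omit [InnerProductSpace ℝ E] in
/-- norms of points close to a unit vector -/
theorem norm_near {p q : E} {e : ℝ} (hq : ‖q‖ = 1) (h : ‖p - q‖ ≤ e) :
    1 - e ≤ ‖p‖ ∧ ‖p‖ ≤ 1 + e := by
  have h1 : ‖q‖ ≤ ‖p‖ + ‖p - q‖ := by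
    have : q = p - (p - q) := by abel
    calc ‖q‖ = ‖p - (p - q)‖ := by rw [← this]
      _ ≤ _ := norm_sub_le _ _
  have h2 : ‖p‖ ≤ ‖q‖ + ‖p - q‖ := by
    have : p = q + (p - q) := by abel
    calc ‖p‖ = ‖q + (p - q)‖ := by rw [← this]
      _ ≤ _ := norm_add_le _ _
  constructor <;> linarith

theorem u_A {p : E} (hp : p ∈ (A : Set E)) : D.u p = uA p := by
  have hp' : ‖p‖ ≤ 1 / 1000000 := hp
  unfold u
  rw [if_pos (by linarith)]

theorem u_B {p : E} (hp : p ∈ D.RB) : D.u p = D.uB p := by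
  have h := D.RB_norm hp
  have h1 := norm_near D.hb h
  unfold u
  rw [if_neg (by linarith), if_pos (by linarith)]

theorem u_C {p : E} (hp : p ∈ D.RC) : D.u p = D.uC p := by
  have h := D.RC_norm hp
  have hb' : ‖-D.b‖ = 1 := by rw [norm_neg, D.hb]
  have h1 := norm_near (p := p) (e := 1 / 100) hb' (by rwa [sub_neg_eq_add])
  have h2 : 1 < ‖p - D.b‖ := by
    have : (2 : ℝ) • D.b = (p + D.b) - (p - D.b) := by rw [two_smul]; abel
    have h3 : ‖(2 : ℝ) • D.b‖ ≤ ‖p + D.b‖ + ‖p - D.b‖ := by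
      rw [this]; exact norm_sub_le _ _
    rw [norm_smul, D.hb] at h3
    have : ‖(2 : ℝ)‖ = 2 := by norm_num
    rw [this] at h3
    linarith
  unfold u
  rw [if_neg (by linarith), if_neg (by linarith), if_pos (by linarith)]

theorem u_D {p : E} (hp : p ∈ D.RD) : D.u p = D.uB (D.R p) := by
  have h := D.RB_norm hp
  have h1 := norm_near D.hb h
  rw [D.R.norm_map] at h1
  have h0 := h
  rw [D.norm_R_sub] at h
  have k1 := D.norm_b_sub_Rb.1
  have k2 := D.norm_b_add_Rb.1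
  have h2 : 1 < ‖p - D.b‖ := by
    have : D.b - D.R D.b = (p - D.R D.b) - (p - D.b) := by abel
    have h3 : ‖D.b - D.R D.b‖ ≤ ‖p - D.R D.b‖ + ‖p - D.b‖ := by
      rw [this]; exact norm_sub_le _ _
    linarith
  have h2' : 1 < ‖p + D.b‖ := by
    have : D.b + D.R D.b = (p + D.b) - (p - D.R D.b) := by abel
    have h3 : ‖D.b + D.R D.b‖ ≤ ‖p + D.b‖ + ‖p - D.R D.b‖ := by
      rw [this]; exact norm_sub_le _ _
    linarith
  unfold u
  rw [if_neg (by linarith), if_neg (by linarith), if_neg (by linarith), if_pos (by linarith)]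

theorem u_F {p : E} (hp : p ∈ D.RF) : D.u p = D.uC (D.R p) := by
  have h := D.RC_norm hp
  have hb' : ‖-D.b‖ = 1 := by rw [norm_neg, D.hb]
  have h1 := norm_near (p := D.R p) (e := 1 / 100) hb' (by rwa [sub_neg_eq_add])
  rw [D.R.norm_map] at h1
  have h0 := h
  rw [D.norm_R_add] at h
  have k1 := D.norm_b_sub_Rb.1
  have k2 := D.norm_b_add_Rb.1
  have h2 : 1 < ‖p - D.b‖ := by
    have : D.b + D.R D.b = (p + D.R D.b) - (p - D.b) := by abel
    have h3 : ‖D.b + D.R D.b‖ ≤ ‖p + D.R D.b‖ + ‖p - D.b‖ := by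
      rw [this]; exact norm_sub_le _ _
    linarith
  have h2' : 1 < ‖p + D.b‖ := by
    have : D.b - D.R D.b = (p + D.b) - (p + D.R D.b) := by abel
    have h3 : ‖D.b - D.R D.b‖ ≤ ‖p + D.b‖ + ‖p + D.R D.b‖ := by
      rw [this]; exact norm_sub_le _ _
    linarith
  have h4 : 1 < ‖D.R p - D.b‖ := by
    have : (2 : ℝ) • D.b = (D.R p + D.b) - (D.R p - D.b) := by rw [two_smul]; abel
    have h3 : ‖(2 : ℝ) • D.b‖ ≤ ‖D.R p + D.b‖ + ‖D.R p - D.b‖ := by
      rw [this]; exact norm_sub_le _ _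
    rw [norm_smul, D.hb] at h3
    have : ‖(2 : ℝ)‖ = 2 := by norm_num
    rw [this] at h3
    linarith
  unfold u
  rw [if_neg (by linarith), if_neg (by linarith), if_neg (by linarith), if_neg (by linarith)]

/-! Numerical bounds for the potentials. -/

omit [InnerProductSpace ℝ E] in
theorem uA_bounds {p : E} (hp : p ∈ (A : Set E)) : 199 / 100 ≤ uA p ∧ uA p ≤ 2 := by
  have hp' : ‖p‖ ≤ 1 / 1000000 := hp
  have h0 := norm_nonneg p
  unfold uA
  constructor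
  · nlinarith
  · nlinarith

theorem uB_bounds {p : E} (hp : p ∈ D.RB) : 24 / 100 ≤ D.uB p ∧ D.uB p ≤ 26 / 100 := by
  have h := D.RB_norm hp
  have h0 := norm_nonneg (p - D.b)
  have h1 : |⟪D.b, p - D.b⟫| ≤ ‖D.b‖ * ‖p - D.b‖ := abs_real_inner_le_norm _ _
  rw [D.hb, one_mul] at h1
  have h2 := abs_le.mp h1
  unfold uB
  constructor
  · nlinarith
  · nlinarith

theorem uC_bounds {p : E} (hp : p ∈ D.RC) : 15 / 100 ≤ D.uC p ∧ D.uC p ≤ 31 / 100 := by
  obtain ⟨x, hx, rfl⟩ := hp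
  have hn := D.near x hx
  have a1 := hn.xy_ge D.hb
  have a2 := hn.xy_le D.hb
  have a3 := hn.xz_ge D.hb
  have a4 := hn.xz_le D.hb
  have a5 := hn.yz_ge D.hb
  have a6 := hn.yz_le D.hb
  have hA := uA_bounds hx
  have hB := D.uB_bounds ⟨x, hx, rfl⟩
  have e : D.uC (D.Z x) = 1 / ‖x - D.Y x‖ + 1 / ‖x - D.Z x‖ + 1 / ‖D.Y x - D.Z x‖
      - uA x - D.uB (D.Y x) := by
    unfold uC
    rw [D.invZ x hx]
    unfold Fval uA uB
    ring
  rw [e]
  have b1 : 1 / ‖x - D.Y x‖ ≤ 1 / (99 / 100) := by gcongr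
  have b2 : 1 / (101 / 100) ≤ 1 / ‖x - D.Y x‖ := by
    apply one_div_le_one_div_of_le _ a2
    linarith
  have b3 : 1 / ‖x - D.Z x‖ ≤ 1 / (98 / 100) := by gcongr
  have b4 : 1 / (102 / 100) ≤ 1 / ‖x - D.Z x‖ := by
    apply one_div_le_one_div_of_le _ a4
    linarith
  have b5 : 1 / ‖D.Y x - D.Z x‖ ≤ 1 / (198 / 100) := by gcongr
  have b6 : 1 / (202 / 100) ≤ 1 / ‖D.Y x - D.Z x‖ := by
    apply one_div_le_one_div_of_le _ a6
    linarith
  norm_num at b1 b2 b3 b4 b5 b6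
  constructor
  · norm_num
    linarith
  · norm_num
    linarith

end Setup

end Vale.Agent.Lib.P121
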