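import Vale.Agent.Lib.P121.Field

open scoped RealInnerProductSpace

namespace Vale.Agent.Lib.P121

variable {E : Type*} [NormedAddCommGroup E] [InnerProductSpace ℝ E]

/-- Inverse of the field `G` on nonzero vectors. -/
noncomputable def J (w : E) : E := -((√‖w‖ ^ 3)⁻¹) • w

theorem J_spec {w : E} (hw : w ≠ 0) : J w ≠ 0 ∧ G (J w) = w ∧ ‖J w‖ ^ 2 * ‖w‖ = 1 := by
  have hs : 0 < ‖w‖ := norm_pos_iff.mpr hw
  have hq : 0 < √‖w‖ := Real.sqrt_pos.mpr hs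
  have hq2 : √‖w‖ ^ 2 = ‖w‖ := Real.sq_sqrt hs.le
  unfold J
  refine ⟨?_, ?_, ?_⟩
  · simp [hw, hq.ne']
  · have hn : ‖-((√‖w‖ ^ 3)⁻¹) • w‖ = (√‖w‖)⁻¹ := by
      rw [norm_smul]
      simp only [norm_neg, norm_inv, norm_pow, Real.norm_eq_abs, abs_of_pos hq]
      rw [← hq2]
      simp only [Real.sqrt_sq hq.le]
      field_simp
    unfold G
    rw [hn, smul_smul]
    have : -((√‖w‖)⁻¹ ^ 3)⁻¹ * -((√‖w‖ ^ 3)⁻¹) = 1 := by
      field_simp
    rw [this, one_smul]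
  · rw [norm_smul]
    simp only [norm_neg, norm_inv, norm_pow, Real.norm_eq_abs, abs_of_pos hq]
    have h6 : √‖w‖ ^ 6 = ‖w‖ ^ 3 := by
      calc √‖w‖ ^ 6 = (√‖w‖ ^ 2) ^ 3 := by ring
        _ = ‖w‖ ^ 3 := by rw [hq2]
    have h7 : ((√‖w‖ ^ 3)⁻¹ * ‖w‖) ^ 2 * ‖w‖ = (√‖w‖ ^ 6)⁻¹ * ‖w‖ ^ 3 := by
      field_simp
    rw [h7, h6]
    field_simp

theorem norm_J_le {w : E} (hw : 5 / 6 ≤ ‖w‖) : ‖J w‖ ≤ 11 / 10 := by
  have hw0 : w ≠ 0 := by
    rw [← norm_pos_iff]; linarith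
  obtain ⟨-, -, h⟩ := J_spec hw0
  by_contra hcon
  push Not at hcon
  have h1 : (11 / 10 : ℝ) ^ 2 < ‖J w‖ ^ 2 := by gcongr
  nlinarith

theorem J_lip {w w' : E} (hw : 5 / 6 ≤ ‖w‖) (hw' : 5 / 6 ≤ ‖w'‖) :
    ‖J w - J w'‖ ≤ 2 * ‖w - w'‖ := by
  have hw0 : w ≠ 0 := by
    rw [← norm_pos_iff]; linarith
  have hw0' : w' ≠ 0 := by
    rw [← norm_pos_iff]; linarith
  have h := norm_sub_le_of_G (J_spec hw0).1 (J_spec hw0').1 (norm_J_le hw) (norm_J_le hw')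
  rw [(J_spec hw0).2.1, (J_spec hw0').2.1] at h
  have h2 : (11 / 10 : ℝ) ^ 3 ≤ 2 := by norm_num
  calc ‖J w - J w'‖ ≤ (11 / 10) ^ 3 * ‖w - w'‖ := h
    _ ≤ 2 * ‖w - w'‖ := by gcongr

/-- Lipschitz bound for `G` at distances at least `9/10`. -/
theorem G_lip3 {v v' : E} (h1 : 9 / 10 ≤ ‖v‖) (h2 : 9 / 10 ≤ ‖v'‖) :
    ‖G v - G v'‖ ≤ 3 * ‖v - v'‖ := by
  have h := norm_G_sub_le (by norm_num : (0 : ℝ) < 9 / 10) h1 h2
  have h2 : 2 / (9 / 10 : ℝ) ^ 3 ≤ 3 := by norm_num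
  calc ‖G v - G v'‖ ≤ 2 / (9 / 10 : ℝ) ^ 3 * ‖v - v'‖ := h
    _ ≤ 3 * ‖v - v'‖ := by gcongr

/-- Lipschitz bound for `G` at distances at least `3/2`. -/
theorem G_lip1 {v v' : E} (h1 : 3 / 2 ≤ ‖v‖) (h2 : 3 / 2 ≤ ‖v'‖) :
    ‖G v - G v'‖ ≤ 1 * ‖v - v'‖ := by
  have h := norm_G_sub_le (by norm_num : (0 : ℝ) < 3 / 2) h1 h2
  have h2 : 2 / (3 / 2 : ℝ) ^ 3 ≤ 1 := by norm_num
  calc ‖G v - G v'‖ ≤ 2 / (3 / 2 : ℝ) ^ 3 * ‖v - v'‖ := h
    _ ≤ 1 * ‖v - v'‖ := by gcongr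

/-- Stationarity equations of the sheet attached to the unit vector `b`. -/
def Stat (b x y z : E) : Prop :=
  (1000 : ℝ) • x + G (x - y) + G (x - z) = 0 ∧
    (1000 : ℝ) • (y - b) + (5 / 4 : ℝ) • b + G (y - x) + G (y - z) = 0

/-- Localisation of a triple near `(0, b, -b)`. -/
def Near (b x y z : E) : Prop :=
  ‖x‖ ≤ 1 / 1000000 ∧ ‖y - b‖ ≤ 4 / 1000000 ∧ ‖z + b‖ ≤ 1 / 100

theorem G_unit {b : E} (hb : ‖b‖ = 1) : G b = -b := by
  simp [G, hb]

theorem G_two {b : E} (hb : ‖b‖ = 1) : G ((2 : ℝ) • b) = -((1 / 4 : ℝ) • b) := by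
  rw [G, norm_smul, hb, smul_smul, ← neg_smul]
  norm_num

theorem exists_stat [CompleteSpace E] {b : E} (hb : ‖b‖ = 1) {x : E} (hx : ‖x‖ ≤ 1 / 1000000) :
    ∃ y z : E, Near b x y z ∧ Stat b x y z := by
  classical
  -- the auxiliary maps
  let W : E → E := fun y => -((1000 : ℝ) • x + G (x - y))
  let Z : E → E := fun y => x - J (W y)
  let T : E → E := fun y => b + (1 / 1000 : ℝ) • (-((5 / 4 : ℝ) • b) - G (y - x) - G (y - Z y))
  have hxy : ∀ y : E, ‖y - b‖ ≤ 4 / 1000000 → 99 / 100 ≤ ‖x - y‖ := by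
    intro y hy
    have h1 : ‖b‖ ≤ ‖x - y‖ + ‖x‖ + ‖y - b‖ := by
      have : b = -(x - y) + x - (y - b) := by abel
      calc ‖b‖ = ‖-(x - y) + x - (y - b)‖ := by rw [← this]
        _ ≤ ‖-(x - y) + x‖ + ‖y - b‖ := norm_sub_le _ _
        _ ≤ ‖-(x - y)‖ + ‖x‖ + ‖y - b‖ := by gcongr; exact norm_add_le _ _
        _ = ‖x - y‖ + ‖x‖ + ‖y - b‖ := by rw [norm_neg]
    linarith
  have hWb : ∀ y : E, ‖y - b‖ ≤ 4 / 1000000 →
      ‖W y - (-b)‖ ≤ 1000 * ‖x‖ + 3 * (‖x‖ + ‖y - b‖) := by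
    intro y hy
    have h1 : W y - (-b) = -((1000 : ℝ) • x) - (G (x - y) - G (-b)) := by
      simp only [W]
      rw [G_neg, G_unit hb]
      abel
    have h2 : ‖G (x - y) - G (-b)‖ ≤ 3 * ‖(x - y) - (-b)‖ :=
      G_lip3 (by linarith [hxy y hy]) (by rw [norm_neg, hb]; norm_num)
    have h3 : ‖(x - y) - (-b)‖ ≤ ‖x‖ + ‖y - b‖ := by
      have : (x - y) - (-b) = x - (y - b) := by abel
      rw [this]
      exact norm_sub_le _ _
    calc ‖W y - (-b)‖ = ‖-((1000 : ℝ) • x) - (G (x - y) - G (-b))‖ := by rw [h1]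
      _ ≤ ‖-((1000 : ℝ) • x)‖ + ‖G (x - y) - G (-b)‖ := norm_sub_le _ _
      _ ≤ 1000 * ‖x‖ + 3 * (‖x‖ + ‖y - b‖) := by
          rw [norm_neg, norm_smul]
          have : ‖(1000 : ℝ)‖ = 1000 := by norm_num
          rw [this]
          linarith
  have hW : ∀ y : E, ‖y - b‖ ≤ 4 / 1000000 → 5 / 6 ≤ ‖W y‖ := by
    intro y hy
    have h1 := hWb y hy
    have h2 : ‖b‖ ≤ ‖W y‖ + ‖W y - (-b)‖ := by
      have : b = (W y - (-b)) - W y := by abel
      calc ‖b‖ = ‖(W y - (-b)) - W y‖ := by rw [← this]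
        _ ≤ ‖W y - (-b)‖ + ‖W y‖ := norm_sub_le _ _
        _ = ‖W y‖ + ‖W y - (-b)‖ := by ring
    linarith
  have hb56 : (5 / 6 : ℝ) ≤ ‖-b‖ := by rw [norm_neg, hb]; norm_num
  have hJb : J (-b) = b := by
    unfold J
    rw [norm_neg, hb]
    simp
  have hZb : ∀ y : E, ‖y - b‖ ≤ 4 / 1000000 →
      ‖Z y + b‖ ≤ ‖x‖ + 2 * (1000 * ‖x‖ + 3 * (‖x‖ + ‖y - b‖)) := by
    intro y hy
    have h1 : Z y + b = x - (J (W y) - J (-b)) := by
      simp only [Z]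
      rw [hJb]
      abel
    have h2 := J_lip (hW y hy) hb56
    have h3 := hWb y hy
    rw [h1]
    have h4 := norm_sub_le x (J (W y) - J (-b))
    linarith
  have hZ100 : ∀ y : E, ‖y - b‖ ≤ 4 / 1000000 → ‖Z y + b‖ ≤ 1 / 100 := by
    intro y hy
    have := hZb y hy
    linarith
  have hyz : ∀ y : E, ‖y - b‖ ≤ 4 / 1000000 → 19 / 10 ≤ ‖y - Z y‖ := by
    intro y hy
    have h1 := hZ100 y hy
    have h2 : ‖(2 : ℝ) • b‖ ≤ ‖y - Z y‖ + ‖y - b‖ + ‖Z y + b‖ := by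
      have : (2 : ℝ) • b = (y - Z y) - (y - b) + (Z y + b) := by
        rw [two_smul]; abel
      calc ‖(2 : ℝ) • b‖ = ‖(y - Z y) - (y - b) + (Z y + b)‖ := by rw [← this]
        _ ≤ ‖(y - Z y) - (y - b)‖ + ‖Z y + b‖ := norm_add_le _ _
        _ ≤ ‖y - Z y‖ + ‖y - b‖ + ‖Z y + b‖ := by gcongr; exact norm_sub_le _ _
    rw [norm_smul, hb] at h2
    have : ‖(2 : ℝ)‖ = 2 := by norm_num
    rw [this] at h2
    linarith
  have hTT : ∀ y y' : E, ‖y - b‖ ≤ 4 / 1000000 → ‖y' - b‖ ≤ 4 / 1000000 →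
      ‖T y - T y'‖ ≤ 1 / 100 * ‖y - y'‖ := by
    intro y y' hy hy'
    have h1 : T y - T y' = -((1 / 1000 : ℝ) • ((G (y - x) - G (y' - x))
        + (G (y - Z y) - G (y' - Z y')))) := by
      simp only [T]
      rw [smul_add, smul_sub, smul_sub, smul_sub, smul_sub, smul_sub, smul_sub]
      abel
    have h2 : ‖G (y - x) - G (y' - x)‖ ≤ 3 * ‖(y - x) - (y' - x)‖ := by
      apply G_lip3
      · rw [norm_sub_rev]; linarith [hxy y hy]
      · rw [norm_sub_rev]; linarith [hxy y' hy']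
    have h2' : (y - x) - (y' - x) = y - y' := by abel
    rw [h2'] at h2
    have h3 : ‖G (y - Z y) - G (y' - Z y')‖ ≤ 1 * ‖(y - Z y) - (y' - Z y')‖ := by
      apply G_lip1
      · linarith [hyz y hy]
      · linarith [hyz y' hy']
    have h4 : ‖(y - Z y) - (y' - Z y')‖ ≤ ‖y - y'‖ + ‖Z y - Z y'‖ := by
      have : (y - Z y) - (y' - Z y') = (y - y') - (Z y - Z y') := by abel
      rw [this]
      exact norm_sub_le _ _
    have h5 : ‖Z y - Z y'‖ ≤ 2 * ‖W y - W y'‖ := by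
      have : Z y - Z y' = -(J (W y) - J (W y')) := by
        simp only [Z]; abel
      rw [this, norm_neg]
      exact J_lip (hW y hy) (hW y' hy')
    have h6 : ‖W y - W y'‖ ≤ 3 * ‖y - y'‖ := by
      have : W y - W y' = -(G (x - y) - G (x - y')) := by
        simp only [W]; abel
      rw [this, norm_neg]
      have h7 : ‖G (x - y) - G (x - y')‖ ≤ 3 * ‖(x - y) - (x - y')‖ := by
        apply G_lip3
        · linarith [hxy y hy]
        · linarith [hxy y' hy']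
      have h8 : (x - y) - (x - y') = -(y - y') := by abel
      rwa [h8, norm_neg] at h7
    rw [h1, norm_neg, norm_smul]
    have h9 : ‖(1 / 1000 : ℝ)‖ = 1 / 1000 := by norm_num
    rw [h9]
    have h10 := norm_add_le (G (y - x) - G (y' - x)) (G (y - Z y) - G (y' - Z y'))
    linarith
  have hTb : ‖T b - b‖ ≤ 3 * ‖x‖ := by
    have hb0 : ‖b - b‖ ≤ 4 / 1000000 := by rw [sub_self, norm_zero]; norm_num
    have h1 : T b - b = -((1 / 1000 : ℝ) • ((G (b - x) - G b)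
        + (G (b - Z b) - G ((2 : ℝ) • b)))) := by
      simp only [T]
      rw [G_unit hb, G_two hb]
      module
    have h2 : ‖G (b - x) - G b‖ ≤ 3 * ‖(b - x) - b‖ := by
      apply G_lip3
      · rw [norm_sub_rev]; linarith [hxy b hb0]
      · rw [hb]; norm_num
    have h2' : (b - x) - b = -x := by abel
    rw [h2', norm_neg] at h2
    have h3 : ‖G (b - Z b) - G ((2 : ℝ) • b)‖ ≤ 1 * ‖(b - Z b) - (2 : ℝ) • b‖ := by
      apply G_lip1
      · linarith [hyz b hb0]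
      · rw [norm_smul, hb]; norm_num
    have h4 : (b - Z b) - (2 : ℝ) • b = -(Z b + b) := by
      rw [two_smul]; abel
    rw [h4, norm_neg] at h3
    have h5 := hZb b hb0
    simp only [sub_self, norm_zero, add_zero] at h5
    rw [h1, norm_neg, norm_smul]
    have h9 : ‖(1 / 1000 : ℝ)‖ = 1 / 1000 := by norm_num
    rw [h9]
    have h10 := norm_add_le (G (b - x) - G b) (G (b - Z b) - G ((2 : ℝ) • b))
    have h11 := norm_nonneg x
    linarith
  -- contraction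
  let s : Set E := Metric.closedBall b (4 / 1000000)
  have hmem : ∀ y : E, y ∈ s ↔ ‖y - b‖ ≤ 4 / 1000000 := by
    intro y
    simp [s, dist_eq_norm]
  have hmaps : Set.MapsTo T s s := by
    intro y hy
    rw [hmem] at hy ⊢
    have hb0 : ‖b - b‖ ≤ 4 / 1000000 := by rw [sub_self, norm_zero]; norm_num
    have h1 := hTT y b hy hb0
    have h2 : ‖T y - b‖ ≤ ‖T y - T b‖ + ‖T b - b‖ := by
      have : T y - b = (T y - T b) + (T b - b) := by abel
      rw [this]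
      exact norm_add_le _ _
    linarith
  have hcontr : ContractingWith (1 / 100) (hmaps.restrict T s s) := by
    refine ⟨?_, ?_⟩
    · rw [← NNReal.coe_lt_coe]; norm_num
    · apply LipschitzWith.of_dist_le_mul
      rintro ⟨y, hy⟩ ⟨y', hy'⟩
      have := hTT y y' ((hmem y).mp hy) ((hmem y').mp hy')
      simp only [Subtype.dist_eq, Set.MapsTo.val_restrict_apply, dist_eq_norm]
      simpa using this
  have hbs : b ∈ s := by
    rw [hmem, sub_self, norm_zero]; norm_num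
  obtain ⟨y, hys, hfix, -⟩ := ContractingWith.exists_fixedPoint'
    (Metric.isClosed_closedBall.isComplete) hmaps hcontr hbs (edist_ne_top _ _)
  have hy := (hmem y).mp hys
  have hfix' : T y = y := hfix
  refine ⟨y, Z y, ⟨hx, hy, hZ100 y hy⟩, ?_, ?_⟩
  · have hW0 : W y ≠ 0 := by
      rw [← norm_pos_iff]; linarith [hW y hy]
    have h1 : x - Z y = J (W y) := by
      simp only [Z]; abel
    rw [h1, (J_spec hW0).2.1]
    simp only [W]
    abel
  · have h1 : (1000 : ℝ) • (y - b) = -((5 / 4 : ℝ) • b) - G (y - x) - G (y - Z y) := by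
      have h2 : y - b = (1 / 1000 : ℝ) • (-((5 / 4 : ℝ) • b) - G (y - x) - G (y - Z y)) := by
        calc y - b = T y - b := by rw [hfix']
          _ = _ := by simp only [T]; abel
      rw [h2, smul_smul]
      norm_num
    rw [h1]
    abel

end Vale.Agent.Lib.P121
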